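import Vale.Agent.P261.R2.H86.E0

/-!
# P261: the Morava modules `π_{2k} E_n`
-/

namespace Vale.Agent.P261

open MvPowerSeries Vale.Agent.P217.LT

variable {p n : ℕ} [Fact p.Prime] {F : FormalGroup (E0 p n)}

namespace Gn

/-- The action of `x ∈ G_n` on `π_{2k} E_n`, a free `E₀`-module of rank one:
`r ↦ t(x) ^ k * φ(r)`, `t(x)` the leading coefficient of `g`, for `x = (φ, g)`. -/
noncomputable def tw (k : ℤ) (x : Gn p n F) (r : E0 p n) : E0 p n :=
  (((isUnit_t x).unit ^ k : (E0 p n)ˣ) : E0 p n) * pi x r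

theorem tw_zero (x : Gn p n F) (r : E0 p n) : tw 0 x r = pi x r := by
  rw [tw, zpow_zero, Units.val_one, one_mul]

theorem tw_one (k : ℤ) (r : E0 p n) : tw k (1 : Gn p n F) r = r := by
  have h : (isUnit_t (1 : Gn p n F)).unit = 1 := Units.ext t_one
  rw [tw, h, one_zpow, Units.val_one, one_mul, map_one]
  rfl

/-- the ring automorphism as a monoid homomorphism. -/
noncomputable def pm (x : Gn p n F) : E0 p n →* E0 p n :=
  ((pi x : E0 p n →+* E0 p n) : E0 p n →* E0 p n)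

theorem pm_apply (x : Gn p n F) (r : E0 p n) : pm x r = pi x r := rfl

theorem unit_mul (x y : Gn p n F) : (isUnit_t (x * y)).unit =
    (isUnit_t x).unit * Units.map (pm x) (isUnit_t y).unit := Units.ext (t_mul x y)

theorem tw_mul (k : ℤ) (x y : Gn p n F) (r : E0 p n) :
    tw k (x * y) r = tw k x (tw k y r) := by
  have h1 : pi (x * y) r = pi x (pi y r) := by
    rw [map_mul]
    rfl
  have h2 : (((Units.map (pm x) (isUnit_t y).unit) ^ k : (E0 p n)ˣ) : E0 p n) =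
      pi x (((isUnit_t y).unit ^ k : (E0 p n)ˣ) : E0 p n) := by
    rw [← map_zpow, Units.coe_map, pm_apply]
  rw [tw, unit_mul, mul_zpow, Units.val_mul, h1, h2, tw, tw, map_mul, mul_assoc]

theorem tw_add (k : ℤ) (x : Gn p n F) (r s : E0 p n) : tw k x (r + s) = tw k x r + tw k x s := by
  rw [tw, map_add, mul_add]
  rfl

theorem tw_smul (k : ℤ) (x : Gn p n F) (a r : E0 p n) : tw k x (a * r) = pi x a * tw k x r := by
  rw [tw, tw, map_mul]
  ring

theorem t_pow {z : Gn p n F} (hz : pi z = 1) (j : ℕ) : t (z ^ j) = t z ^ j := by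
  induction j with
  | zero => rw [pow_zero, pow_zero, t_one]
  | succ j ih =>
    rw [pow_succ, pow_succ, t_mul, ih, map_pow, hz, one_pow]
    rfl

/-- For `k ≠ 0` some central element of `H` acts on `π_{2k} E_n` as a scalar `λ ∈ ℤ_p` with
`λ - 1 = ε p ^ v`, `ε` a unit. -/
theorem exists_central (H : Subgroup (Gn p n F)) (hH : H.index ≠ 0) (hc : F.IsComm) (k : ℤ)
    (hk : k ≠ 0) : ∃ z ∈ H, (∀ x, z * x = x * z) ∧ pi z = 1 ∧ ∃ (v : ℕ) (ε : (E0 p n)ˣ),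
      (((isUnit_t z).unit ^ k : (E0 p n)ˣ) : E0 p n) - 1 = ε * (p : E0 p n) ^ v ∧
      ∀ x : Gn p n F, pi x (((isUnit_t z).unit ^ k : (E0 p n)ˣ) : E0 p n) =
        (((isUnit_t z).unit ^ k : (E0 p n)ˣ) : E0 p n) := by
  have hp : 1 < p := (Fact.out : p.Prime).one_lt
  have hpd : ¬ p ∣ 1 + p := by
    intro h
    have h1 : p ∣ 1 := (Nat.dvd_add_left (dvd_refl p)).1 h
    exact (Fact.out : p.Prime).one_lt.ne' (Nat.dvd_one.1 h1)
  obtain ⟨z, hz1, hz2, -, hz4⟩ := central hc (1 + p) hpd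
  obtain ⟨j, hj1, -, hj⟩ := H.exists_pow_mem_of_index_ne_zero hH z
  have ht : t (z ^ j) = (((1 + p) ^ j : ℕ) : E0 p n) := by
    rw [t_pow hz1, hz2, Nat.cast_pow]
  have hu : ∀ x : Gn p n F, Units.map (pm x) (isUnit_t (z ^ j)).unit =
      (isUnit_t (z ^ j)).unit := by
    intro x
    apply Units.ext
    rw [Units.coe_map, pm_apply]
    show pi x (t (z ^ j)) = t (z ^ j)
    rw [ht, map_natCast]
  have hfix : ∀ x : Gn p n F, pi x (((isUnit_t (z ^ j)).unit ^ k : (E0 p n)ˣ) : E0 p n) =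
        (((isUnit_t (z ^ j)).unit ^ k : (E0 p n)ˣ) : E0 p n) := by
    intro x
    conv_rhs => rw [← hu x, ← map_zpow, Units.coe_map, pm_apply]
  have ha : 0 < j * k.natAbs := Nat.mul_pos hj1 (Int.natAbs_pos.2 hk)
  have hL : 1 < (1 + p) ^ (j * k.natAbs) := Nat.one_lt_pow ha.ne' (by omega)
  obtain ⟨v, w, hw, hvw⟩ := Nat.exists_eq_pow_mul_and_not_dvd
    (Nat.sub_ne_zero_of_lt hL) p (Fact.out : p.Prime).ne_one
  have hwu : IsUnit (w : E0 p n) := isUnit_natCast w hw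
  have hcast : (((1 + p) ^ (j * k.natAbs) : ℕ) : E0 p n) - 1 = (p : E0 p n) ^ v * w := by
    rw [← Nat.cast_pow p v, ← Nat.cast_mul, ← hvw, Nat.cast_sub hL.le, Nat.cast_one]
  have hpowL : (((isUnit_t (z ^ j)).unit ^ k.natAbs : (E0 p n)ˣ) : E0 p n) =
      (((1 + p) ^ (j * k.natAbs) : ℕ) : E0 p n) := by
    rw [Units.val_pow_eq_pow_val]
    show t (z ^ j) ^ k.natAbs = _
    rw [ht, pow_mul, Nat.cast_pow ((1 + p) ^ j)]
  refine ⟨z ^ j, hj, fun x => ?_, by rw [map_pow, hz1, one_pow], v, ?_⟩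
  · have h : Commute z x := hz4 x
    exact (h.pow_left j).eq
  · obtain ⟨m, rfl | rfl⟩ := k.eq_nat_or_neg
    · refine ⟨hwu.unit, ?_, hfix⟩
      rw [Int.natAbs_natCast] at hpowL hcast
      rw [zpow_natCast, hpowL, hcast, IsUnit.unit_spec, mul_comm]
    · rw [Int.natAbs_neg, Int.natAbs_natCast] at hpowL hcast
      refine ⟨-((isUnit_t (z ^ j)).unit ^ m)⁻¹ * hwu.unit, ?_, hfix⟩
      rw [zpow_neg, zpow_natCast]
      set u := (isUnit_t (z ^ j)).unit ^ m with hudef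
      rw [Units.val_mul, Units.val_neg, IsUnit.unit_spec]
      have h1 : (u : E0 p n) - 1 = (p : E0 p n) ^ v * w := by rw [hpowL, hcast]
      have h2 : ((u⁻¹ : (E0 p n)ˣ) : E0 p n) * (u : E0 p n) = 1 := Units.inv_mul u
      calc ((u⁻¹ : (E0 p n)ˣ) : E0 p n) - 1
          = ((u⁻¹ : (E0 p n)ˣ) : E0 p n) - ((u⁻¹ : (E0 p n)ˣ) : E0 p n) * (u : E0 p n) := by
            rw [h2]
        _ = -((u⁻¹ : (E0 p n)ˣ) : E0 p n) * ((u : E0 p n) - 1) := by ring
        _ = _ := by rw [h1]; ring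

/-- `H⁰(H; π_{2k} E_n) = 0` for `k ≠ 0`. -/
theorem tw_fixed (H : Subgroup (Gn p n F)) (hH : H.index ≠ 0) (hc : F.IsComm) (k : ℤ)
    (hk : k ≠ 0) (r : E0 p n) (h : ∀ x : H, tw k (x : Gn p n F) r = r) : r = 0 := by
  have hD : IsDomain (E0 p n) := NoZeroDivisors.to_isDomain _
  obtain ⟨z, hzH, -, hz1, v, ε, hv, -⟩ := exists_central H hH hc k hk
  have h1 := h ⟨z, hzH⟩
  have h2 : (((isUnit_t z).unit ^ k : (E0 p n)ˣ) : E0 p n) * r = r := by
    have h3 : pi z r = r := by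
      rw [hz1]
      rfl
    rw [← h3, ← tw, h3]
    exact h1
  have h3 : ((((isUnit_t z).unit ^ k : (E0 p n)ˣ) : E0 p n) - 1) * r = 0 := by
    rw [sub_mul, h2, one_mul, sub_self]
  rw [hv, mul_assoc] at h3
  have h4 : (p : E0 p n) ^ v * r = 0 := (Units.mul_right_eq_zero ε).1 h3
  exact (mul_eq_zero.1 h4).resolve_left
    (pow_ne_zero _ Vale.Agent.P261.R2.H86.p_ne_zero)

/-- `H¹(H; π_{2k} E_n)` is killed by a power of `p` for `k ≠ 0`. -/
theorem tw_torsion (H : Subgroup (Gn p n F)) (hH : H.index ≠ 0) (hc : F.IsComm) (k : ℤ)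
    (hk : k ≠ 0) : ∃ N : ℕ, ∀ c : H → E0 p n,
      (∀ g h : H, c (g * h) = c g + tw k (g : Gn p n F) (c h)) →
      ∃ y : E0 p n, ∀ g : H, (p : E0 p n) ^ N * c g = tw k (g : Gn p n F) y - y := by
  have hD : IsDomain (E0 p n) := NoZeroDivisors.to_isDomain _
  obtain ⟨z, hzH, hzc, hz1, v, ε, hv, hfix⟩ := exists_central H hH hc k hk
  refine ⟨v, fun c hcoc => ?_⟩
  have hpv : (p : E0 p n) ^ v ≠ 0 := pow_ne_zero _ Vale.Agent.P261.R2.H86.p_ne_zero
  have hε : ∀ x : Gn p n F, pi x (ε : E0 p n) = ε := by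
    intro x
    apply mul_right_cancel₀ hpv
    rw [← hv]
    have h1 := congrArg (pi x) hv
    rw [map_sub, map_one, hfix, map_mul, map_pow, map_natCast] at h1
    exact h1.symm
  have hεi : ∀ x : Gn p n F, pi x ((ε⁻¹ : (E0 p n)ˣ) : E0 p n) = ((ε⁻¹ : (E0 p n)ˣ) : E0 p n) := by
    intro x
    have h1 : Units.map (pm x) ε = ε := Units.ext (hε x)
    have h2 : Units.map (pm x) ε⁻¹ = ε⁻¹ := by rw [map_inv, h1]
    exact congrArg Units.val h2
  refine ⟨((ε⁻¹ : (E0 p n)ˣ) : E0 p n) * c ⟨z, hzH⟩, fun g => ?_⟩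
  have h1 : (⟨z, hzH⟩ : H) * g = g * ⟨z, hzH⟩ := Subtype.ext (hzc g)
  have h2 := hcoc ⟨z, hzH⟩ g
  have h3 := hcoc g ⟨z, hzH⟩
  rw [h1, h3] at h2
  have h4 : tw k z (c g) = (((isUnit_t z).unit ^ k : (E0 p n)ˣ) : E0 p n) * c g := by
    rw [tw, hz1]
    rfl
  have h5 : tw k ((⟨z, hzH⟩ : H) : Gn p n F) (c g) = tw k z (c g) := rfl
  rw [h5, h4] at h2
  have h6 : ((((isUnit_t z).unit ^ k : (E0 p n)ˣ) : E0 p n) - 1) * c g =
      tw k (g : Gn p n F) (c ⟨z, hzH⟩) - c ⟨z, hzH⟩ := by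
    linear_combination -h2
  rw [hv] at h6
  rw [tw_smul, hεi, ← mul_sub, ← h6, ← mul_assoc, ← mul_assoc, Units.inv_mul, one_mul]

end Gn

end Vale.Agent.P261
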