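import Vale.Agent.P261.R2.H932.Transfer

/-!
# P261: the results for groups identified with finite-index subgroups of `G_n`
-/

namespace Vale.Agent.P261.R2.H932

open MvPowerSeries Vale.Agent.P217 Vale.Agent.P261 Vale.Agent.P261.R2.H700

variable {p n : ℕ} [Fact p.Prime] {Γ : FormalGroup (ZMod p)} {F : FormalGroup (LT.E0 p n)}

section

variable {G : Type} [Group G] {a : G → St.Pair p n} (ha : St.IsFiniteIndex F a)

include ha

theorem fix_zp (x : G) (b : ℤ_[p]) : (a x).φ (St.zp p n b) = St.zp p n b :=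
  map_zp (Gn.pi (jj ha x)) b

theorem twist_eq (k : ℤ) (x : G) (r : LT.E0 p n) :
    St.twist a k x r = Gn.tw k (jj ha x) r := by
  have h1 : ((Gn.isUnit_t (jj ha x)).unit : LT.E0 p n) = PowerSeries.coeff 1 (a x).g := rfl
  rw [St.twist, Gn.tw]
  split_ifs with h
  · obtain ⟨m, rfl⟩ := Int.eq_ofNat_of_zero_le h
    rw [Int.natAbs_natCast, zpow_natCast, Units.val_pow_eq_pow_val, h1]
    rfl
  · obtain ⟨m, rfl | rfl⟩ := k.eq_nat_or_neg
    · exact absurd (Int.natCast_nonneg m) h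
    · rw [Int.natAbs_neg, Int.natAbs_natCast, zpow_neg, zpow_natCast, ← inv_pow,
        Units.val_pow_eq_pow_val, ← h1, Ring.inverse_unit]
      rfl

theorem twist_module (k : ℤ) : St.IsMoravaModule a (St.twist a k) where
  finite := Module.Finite.self _
  one := fun m => by rw [twist_eq ha, map_one, Gn.tw_one]
  mul := fun x y m => by rw [twist_eq ha, twist_eq ha, twist_eq ha, map_mul, Gn.tw_mul]
  add := fun x m m' => by rw [twist_eq ha, twist_eq ha, twist_eq ha, Gn.tw_add]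
  smul := fun x r m => by
    rw [twist_eq ha, twist_eq ha, smul_eq_mul, smul_eq_mul, Gn.tw_smul]
    rfl

end

section

variable {G : Type} [Group G] {a : G → St.Pair p n}
  {M : Type} [AddCommGroup M] [Module (LT.E0 p n) M] {ρ : G → M → M}

theorem tf_pow (htf : St.TorsionFree p n M) (N : ℕ) (m : M)
    (h : (p : LT.E0 p n) ^ N • m = 0) : m = 0 := by
  induction N with
  | zero => rwa [pow_zero, one_smul] at h
  | succ N ih =>
    rw [pow_succ', mul_smul] at h
    exact ih (htf _ h)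

theorem scalar_unit {l : ℤ_[p]} (hl : l ≠ 1) : ∃ (v : ℕ) (u : ℤ_[p]),
    (p : LT.E0 p n) ^ v = St.zp p n u * (St.zp p n l - 1) := by
  have h1 : l - 1 ≠ 0 := sub_ne_zero.2 hl
  obtain ⟨v, w, h2⟩ : ∃ (v : ℕ) (w : ℤ_[p]ˣ), l - 1 = w * (p : ℤ_[p]) ^ v :=
    ⟨_, _, PadicInt.unitCoeff_spec h1⟩
  refine ⟨v, ((w⁻¹ : ℤ_[p]ˣ) : ℤ_[p]), ?_⟩
  have h3 : St.zp p n l - 1 = St.zp p n (l - 1) := by rw [map_sub, map_one]
  rw [h3, ← map_mul, h2, ← mul_assoc, Units.inv_mul, one_mul, map_pow, map_natCast]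

theorem central_h0 (htf : St.TorsionFree p n M) (hc : St.CentralScalar p n ρ) :
    St.H0Zero ρ := by
  obtain ⟨z, -, l, hl, hz⟩ := hc
  intro m hm
  obtain ⟨v, u, hvu⟩ := scalar_unit (n := n) hl
  apply tf_pow htf v m
  have h1 : St.zp p n l • m = m := by rw [← hz, hm]
  rw [hvu, mul_smul, sub_smul, h1, one_smul, sub_self, smul_zero]

theorem central_h1 (h : St.IsMoravaModule a ρ)
    (hfix : ∀ x (b : ℤ_[p]), (a x).φ (St.zp p n b) = St.zp p n b)
    (hc : St.CentralScalar p n ρ) : ∃ N : ℕ, ∀ c : G → M,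
      (∀ x y, c (x * y) = c x + ρ x (c y)) → St.IsCoboundary ρ (p ^ N • c) := by
  obtain ⟨z, hcent, l, hl, hz⟩ := hc
  obtain ⟨v, u, hvu⟩ := scalar_unit (n := n) hl
  refine ⟨v, fun c hcoc => ⟨St.zp p n u • c z, fun x => ?_⟩⟩
  have h1 := hcoc z x
  rw [hcent x, hcoc x z, hz] at h1
  have h2 : (St.zp p n l - 1) • c x = ρ x (c z) - c z := by
    rw [sub_smul, one_smul]
    rw [sub_eq_sub_iff_add_eq_add, add_comm, ← h1, add_comm]
  rw [h.smul, hfix, ← smul_sub, ← h2, ← mul_smul, ← hvu, Pi.smul_apply]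
  exact (cast_smul (p := p) (n := n) v (c x)).symm

end

section

variable (hn1 : 1 ≤ n) (hΓ : LT.IsHonda p n Γ) (hF : LT.IsUniversal p n Γ F)
    (hA : LT.HeightAdapted p n F)
    {G : Type} [Group G] {a : G → St.Pair p n} (ha : St.IsFiniteIndex F a)

include hF ha

/-- the central element. -/
theorem twist_central (k : ℤ) (hk : k ≠ 0) : St.CentralScalar p n (St.twist a k) := by
  have hp : 1 < p := (Fact.out : p.Prime).one_lt
  have hpd : ¬ p ∣ 1 + p := by
    intro h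
    have h1 : p ∣ 1 := (Nat.dvd_add_left (dvd_refl p)).1 h
    exact (Fact.out : p.Prime).one_lt.ne' (Nat.dvd_one.1 h1)
  obtain ⟨z, hz1, hz2, -, hz4⟩ := Gn.central (F := F) hF.1 (1 + p) hpd
  obtain ⟨j, hj1, -, hj⟩ := (jj ha).range.exists_pow_mem_of_index_ne_zero (jj_index ha) z
  obtain ⟨y, hy⟩ := hj
  have hpi : Gn.pi (z ^ j) = 1 := by rw [map_pow, hz1, one_pow]
  have ht : Gn.t (z ^ j) = (((1 + p) ^ j : ℕ) : LT.E0 p n) := by
    rw [Gn.t_pow hz1, hz2, Nat.cast_pow]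
  have hu : IsUnit (((1 + p) ^ j : ℕ) : ℤ_[p]) := by
    rw [Nat.cast_pow]
    refine IsUnit.pow j ?_
    refine IsLocalRing.isUnit_of_mem_nonunits_one_sub_self _ ?_
    rw [Nat.cast_add, Nat.cast_one, sub_add_cancel_left]
    intro h
    exact PadicInt.p_nonunit (IsUnit.neg_iff _ |>.1 h)
  have hmap : Units.map ((St.zp p n : ℤ_[p] →+* LT.E0 p n) : ℤ_[p] →* LT.E0 p n) hu.unit =
      (Gn.isUnit_t (z ^ j)).unit := by
    apply Units.ext
    show St.zp p n (((1 + p) ^ j : ℕ) : ℤ_[p]) = Gn.t (z ^ j)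
    rw [ht, map_natCast]
  refine ⟨y, fun x => jj_injective ha ?_, ((hu.unit ^ k : ℤ_[p]ˣ) : ℤ_[p]), ?_, fun m => ?_⟩
  · rw [map_mul, map_mul, hy]
    have h : Commute z (jj ha x) := hz4 (jj ha x)
    exact (h.pow_left j).eq
  · intro h
    have h1 : hu.unit ^ k = 1 := Units.ext h
    have h2 : hu.unit ^ k.natAbs = 1 := by
      obtain ⟨m, rfl | rfl⟩ := k.eq_nat_or_neg
      · rw [zpow_natCast] at h1
        rw [Int.natAbs_natCast, h1]
      · rw [zpow_neg, zpow_natCast, inv_eq_one] at h1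
        rw [Int.natAbs_neg, Int.natAbs_natCast, h1]
    have h3 := congrArg Units.val h2
    rw [Units.val_pow_eq_pow_val, IsUnit.unit_spec, Units.val_one, ← Nat.cast_pow, ← pow_mul,
      Nat.cast_eq_one] at h3
    have ha' : 0 < j * k.natAbs := Nat.mul_pos hj1 (Int.natAbs_pos.2 hk)
    have hL : 1 < (1 + p) ^ (j * k.natAbs) := Nat.one_lt_pow ha'.ne' (by omega)
    exact hL.ne' h3
  · rw [twist_eq ha, hy, Gn.tw, hpi, ← hmap, ← map_zpow]
    rfl

include hn1 hΓ hA

theorem frac' : St.FractionsConstant a := by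
  intro h hh hle b c hc hb
  exact frac hn1 hΓ hF hA (jj ha).range (jj_index ha) h hh hle b c hc (fun g => by
    rw [pi_ee ha, pi_ee ha]
    exact hb _)

theorem twist_zero_tf [TopologicalSpace G] : St.H1TorsionFree p n (St.twist a 0) := by
  rintro N c hc ⟨m, hm⟩
  obtain ⟨y, hy⟩ := Vale.Agent.P261.R2.H86.E0_torsion_free hn1 hΓ hF hA (jj ha).range
    (jj_index ha) (fun g => c ((ee ha).symm g)) (fun g h => by
      have h1 := hc.1 ((ee ha).symm g) ((ee ha).symm h)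
      rw [twist_eq ha, Gn.tw_zero, ee_symm] at h1
      rw [map_mul]
      exact h1) N m (fun g => by
      have h1 := hm ((ee ha).symm g)
      rw [twist_eq ha, Gn.tw_zero, ee_symm, Pi.smul_apply,
        ← cast_smul (p := p) (n := n) N (c _), smul_eq_mul] at h1
      exact h1)
  refine ⟨y, fun x => ?_⟩
  rw [twist_eq ha, Gn.tw_zero]
  have h1 := hy (ee ha x)
  rw [MulEquiv.symm_apply_apply] at h1
  exact h1

variable {M : Type} [AddCommGroup M] [Module (LT.E0 p n) M] {ρ : G → M → M}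
  (h : St.IsMoravaModule a ρ)

include h

theorem h0fg' : St.H0FG p n ρ := by
  obtain ⟨k, e, he, hall⟩ := h0_fg hn1 hΓ hF hA (jj ha).range (jj_index ha) M (rr ha ρ)
    (rr_module ha h)
  refine ⟨k, e, fun i x => ?_, fun m hm => ?_⟩
  · have h1 := he i (ee ha x)
    rw [rr_ee] at h1
    exact h1
  · obtain ⟨b, hb⟩ := hall m (fun g => hm _)
    exact ⟨b, hb⟩

theorem h0fin' (hk : St.KilledByPower p n M) : St.H0Finite ρ := by
  obtain ⟨N, hN⟩ := hk
  refine (fin_of_torsion hn1 hΓ hF hA (jj ha).range (jj_index ha) M (rr ha ρ)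
    (rr_module ha h) N hN).subset ?_
  intro m hm g
  exact hm _

theorem h1tf' [TopologicalSpace G] (htf : St.TorsionFree p n M) : St.H1TorsionFinite p n ρ := by
  obtain ⟨S, hS, hSZ, hall⟩ := h1_tors hn1 hΓ hF hA (jj ha).range (jj_index ha) M (rr ha ρ)
    (rr_module ha h) htf {c | St.IsCocycle p n ρ (fun x => c (ee ha x))}
  refine ⟨(fun c x => c (ee ha x)) '' S, hS.image _, ?_, ?_⟩
  · rintro _ ⟨c, hc, rfl⟩
    exact hSZ hc
  · rintro c hc ⟨N, m, hm⟩
    obtain ⟨c', hc', m', hm'⟩ := hall (fun g => c ((ee ha).symm g)) (by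
      show St.IsCocycle p n ρ (fun x => c ((ee ha).symm (ee ha x)))
      simp only [MulEquiv.symm_apply_apply]
      exact hc) ⟨N, m, fun g => hm _⟩
    refine ⟨_, ⟨c', hc', rfl⟩, m', fun x => ?_⟩
    have h1 := hm' (ee ha x)
    rw [rr_ee, Pi.sub_apply, MulEquiv.symm_apply_apply] at h1
    exact h1

theorem h1fin' [TopologicalSpace G] (htf : St.TorsionFree p n M)
    (hc : St.CentralScalar p n ρ) : St.H1Finite p n ρ := by
  obtain ⟨S, hS, hSZ, hall⟩ := h1tf' hn1 hΓ hF hA ha h htf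
  obtain ⟨N, hN⟩ := central_h1 h (fix_zp ha) hc
  exact ⟨S, hS, hSZ, fun c hc => hall c hc ⟨N, hN c hc.1⟩⟩

end

end Vale.Agent.P261.R2.H932
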