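import Vale.Agent.P217.LT
import Mathlib.RingTheory.WittVector.Compare

/-!
# P261: definitions used in the statement of the final result
-/

namespace Vale.Agent.P261.St

open MvPowerSeries Vale.Agent.P217.LT Topology

variable (p n : ℕ) [Fact p.Prime]

/-- A pair `(φ, g)`: a ring homomorphism `φ : E₀ → E₀` and a power series `g` over `E₀`. -/
structure Pair where
  φ : E0 p n →+* E0 p n
  g : PowerSeries (E0 p n)

/-- The canonical map `ℤ_p = W(𝔽_p) → W(𝔽_{p^n}) ⊆ E₀`. -/
noncomputable def zp : ℤ_[p] →+* E0 p n :=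
  (MvPowerSeries.C (σ := Fin (n - 1)) (R := WittVector p (GaloisField p n))).comp
    ((WittVector.map (algebraMap (ZMod p) (GaloisField p n))).comp
      ((WittVector.equiv p).symm : ℤ_[p] →+* WittVector p (ZMod p)))

variable {p n}

/-- `(φ, g)` is an automorphism of `(E₀, F)`: `φ` is an automorphism of `E₀` and `g : F → φ_* F`
an isomorphism of formal group laws. -/
def IsAut (F : FormalGroup (E0 p n)) (x : Pair p n) : Prop :=
  Function.Bijective x.φ ∧ IsIso F (F.map x.φ) x.g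

/-- The product `(φ, g) (φ', g') = (φ φ', φ_*(g') ∘ g)`. -/
noncomputable def Pair.comp (x y : Pair p n) : Pair p n :=
  ⟨x.φ.comp y.φ, PowerSeries.subst x.g (y.g.map x.φ)⟩

/-- `(φ, g)` reduces to `(σ, γ)` over `𝔽_{p^n}`. -/
def Pair.Reduces (x : Pair p n) (σ : GaloisField p n ≃+* GaloisField p n)
    (γ : PowerSeries (GaloisField p n)) : Prop :=
  (∀ r, red p n (x.φ r) = σ (red p n r)) ∧ x.g.map (red p n) = γ

/-- Reduction is a bijection from the automorphisms `(φ, g)` of `(E₀, F)` to the extended Morava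
stabilizer group of all `(σ, γ)`, `σ` an automorphism of `𝔽_{p^n}`, `γ` an automorphism of `Γ`
over `𝔽_{p^n}`. -/
def IsStabilizer (Γ : FormalGroup (ZMod p)) (F : FormalGroup (E0 p n)) : Prop :=
  (∀ x, IsAut F x → ∃ σ γ, x.Reduces σ γ ∧ IsIso (base p n Γ) (base p n Γ) γ) ∧
    ∀ σ γ, IsIso (base p n Γ) (base p n Γ) γ → ∃! x, IsAut F x ∧ x.Reduces σ γ

section

variable {G : Type} [Group G] {M : Type} [AddCommGroup M] [Module (E0 p n) M]

/-- `a : G → G_n` identifies the group `G` with a subgroup of finite index of the group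
`G_n = {(φ, g)}` of all automorphisms of `(E₀, F)`. -/
structure IsFiniteIndex (F : FormalGroup (E0 p n)) (a : G → Pair p n) : Prop where
  aut : ∀ x, IsAut F (a x)
  mul : ∀ x y, a (x * y) = (a x).comp (a y)
  injective : Function.Injective a
  index : ∃ S : Set (Pair p n), S.Finite ∧ (∀ s ∈ S, IsAut F s) ∧
    ∀ y, IsAut F y → ∃ s ∈ S, ∃ x, y = s.comp (a x)

/-- All `G`-invariant fractions `b / c` of `E₀ / I_h`, `1 ≤ h ≤ n`, are constants `d` with
`d ^ (p ^ n) = d`. -/
def FractionsConstant (a : G → Pair p n) : Prop :=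
  ∀ h, 1 ≤ h → h ≤ n → ∀ b c : E0 p n, c ∉ heightIdeal p n h →
    (∀ x, (a x).φ b * c - b * (a x).φ c ∈ heightIdeal p n h) →
    ∃ d : E0 p n, d ^ p ^ n = d ∧ b - d * c ∈ heightIdeal p n h

/-- `ρ` is a semilinear action of `G` on the finitely generated `E₀`-module `M`. -/
structure IsMoravaModule (a : G → Pair p n) (ρ : G → M → M) : Prop where
  finite : Module.Finite (E0 p n) M
  one : ∀ m, ρ 1 m = m
  mul : ∀ x y m, ρ (x * y) m = ρ x (ρ y m)
  add : ∀ x m m', ρ x (m + m') = ρ x m + ρ x m'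
  smul : ∀ x (r : E0 p n) m, ρ x (r • m) = (a x).φ r • ρ x m

/-- The action of `G` on `π_{2k} E_n`, a free `E₀`-module of rank one: `r ↦ g'(0) ^ k * φ(r)`. -/
noncomputable def twist (a : G → Pair p n) (k : ℤ) (x : G) (r : E0 p n) : E0 p n :=
  (if 0 ≤ k then PowerSeries.coeff 1 (a x).g ^ k.natAbs
    else Ring.inverse (PowerSeries.coeff 1 (a x).g) ^ k.natAbs) * (a x).φ r

variable (p n)

/-- `M` is `p`-torsion-free. -/
def TorsionFree (M : Type) [AddCommGroup M] [Module (E0 p n) M] : Prop :=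
  ∀ m : M, (p : E0 p n) • m = 0 → m = 0

/-- `M` is killed by a power of `p`. -/
def KilledByPower (M : Type) [AddCommGroup M] [Module (E0 p n) M] : Prop :=
  ∃ N : ℕ, ∀ m : M, (p : E0 p n) ^ N • m = 0

/-- `H⁰ = {m | ρ x m = m for all x}` is a finitely generated `ℤ_p`-module. -/
def H0FG (ρ : G → M → M) : Prop :=
  ∃ (k : ℕ) (e : Fin k → M), (∀ i x, ρ x (e i) = e i) ∧
    ∀ m, (∀ x, ρ x m = m) → ∃ b : Fin k → ℤ_[p], m = ∑ i, zp p n (b i) • e i

/-- Some central element of `G` acts on `M` as multiplication by a `p`-adic integer `l ≠ 1`. -/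
def CentralScalar (ρ : G → M → M) : Prop :=
  ∃ z : G, (∀ x, z * x = x * z) ∧ ∃ l : ℤ_[p], l ≠ 1 ∧ ∀ m, ρ z m = zp p n l • m

/-- The crossed homomorphisms `c : G → M`, continuous with respect to the given topology of `G` and
the `I_n`-adic topology of `M` (continuity at `1` implies continuity; for the discrete topology of
`G` it is no condition). -/
def IsCocycle [TopologicalSpace G] (ρ : G → M → M) (c : G → M) : Prop :=
  (∀ x y, c (x * y) = c x + ρ x (c y)) ∧
    ∀ k : ℕ, ∀ᶠ x in 𝓝 (1 : G), c x ∈ (heightIdeal p n n ^ k • ⊤ : Submodule (E0 p n) M)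

end

section

variable {G : Type} {M : Type} [AddCommGroup M]

/-- `H⁰` is finite. -/
def H0Finite (ρ : G → M → M) : Prop := {m : M | ∀ x, ρ x m = m}.Finite

/-- `H⁰ = 0`. -/
def H0Zero (ρ : G → M → M) : Prop := ∀ m : M, (∀ x, ρ x m = m) → m = 0

/-- `c` is principal: `c x = ρ x m - m`. -/
def IsCoboundary (ρ : G → M → M) (c : G → M) : Prop := ∃ m, ∀ x, c x = ρ x m - m

end

section

variable (p n) {G : Type} [Group G] [TopologicalSpace G] {M : Type} [AddCommGroup M]
  [Module (E0 p n) M]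

/-- The torsion subgroup of `H¹` (crossed homomorphisms modulo principal ones) is finite: the
crossed homomorphisms `c` with `p ^ N c` principal for some `N` represent finitely many classes. -/
def H1TorsionFinite (ρ : G → M → M) : Prop :=
  ∃ S : Set (G → M), S.Finite ∧ (∀ c ∈ S, IsCocycle p n ρ c) ∧ ∀ c, IsCocycle p n ρ c →
    (∃ N : ℕ, IsCoboundary ρ (p ^ N • c)) → ∃ c' ∈ S, IsCoboundary ρ (c - c')

/-- `H¹` is finite. -/
def H1Finite (ρ : G → M → M) : Prop :=
  ∃ S : Set (G → M), S.Finite ∧ (∀ c ∈ S, IsCocycle p n ρ c) ∧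
    ∀ c, IsCocycle p n ρ c → ∃ c' ∈ S, IsCoboundary ρ (c - c')

/-- `H¹` is torsion-free. -/
def H1TorsionFree (ρ : G → M → M) : Prop :=
  ∀ (N : ℕ) (c : G → M), IsCocycle p n ρ c → IsCoboundary ρ (p ^ N • c) → IsCoboundary ρ c

/-- `H¹` is a finitely generated `ℤ_p`-module. -/
def H1FG (ρ : G → M → M) : Prop :=
  ∃ (d : ℕ) (e : Fin d → G → M), (∀ i, IsCocycle p n ρ (e i)) ∧ ∀ c, IsCocycle p n ρ c →
    ∃ b : Fin d → ℤ_[p], IsCoboundary ρ (c - fun x => ∑ i, zp p n (b i) • e i x)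

/-- `H¹ ⊗ ℚ` is a finite-dimensional `ℚ_p`-vector space. -/
def H1RationallyFG (ρ : G → M → M) : Prop :=
  ∃ (d : ℕ) (e : Fin d → G → M), (∀ i, IsCocycle p n ρ (e i)) ∧ ∀ c, IsCocycle p n ρ c →
    ∃ (N : ℕ) (b : Fin d → ℤ_[p]),
      IsCoboundary ρ (p ^ N • c - fun x => ∑ i, zp p n (b i) • e i x)

end

end Vale.Agent.P261.St
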