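import Vale.Agent.P261.R2.H620.Gn

/-!
# P261: definitions used in the statement of the final result
-/

namespace Vale.Agent.P261

open MvPowerSeries Vale.Agent.P217.LT Topology

variable {p n : ℕ} [Fact p.Prime] {F : FormalGroup (E0 p n)}

/-- `ρ` is a semilinear action of the group `H ≤ G_n` on the finitely generated `E₀`-module `M`. -/
structure IsMoravaModule (H : Subgroup (Gn p n F)) (M : Type) [AddCommGroup M] [Module (E0 p n) M]
    (ρ : H → M → M) : Prop where
  finite : Module.Finite (E0 p n) M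
  one : ∀ m, ρ 1 m = m
  mul : ∀ g h m, ρ (g * h) m = ρ g (ρ h m)
  add : ∀ g m m', ρ g (m + m') = ρ g m + ρ g m'
  smul : ∀ g (r : E0 p n) m, ρ g (r • m) = Gn.pi (g : Gn p n F) r • ρ g m

/-- The crossed homomorphisms `c : H → M` for the action `ρ`, continuous with respect to the given
topology of `H` and the `I_n`-adic topology of `M` (continuity at `1` implies continuity; for the
discrete topology of `H` it is no condition). -/
def IsCocycle (H : Subgroup (Gn p n F)) [TopologicalSpace H] {M : Type} [AddCommGroup M]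
    [Module (E0 p n) M] (ρ : H → M → M) (c : H → M) : Prop :=
  (∀ g h, c (g * h) = c g + ρ g (c h)) ∧
    ∀ k : ℕ, ∀ᶠ g in 𝓝 (1 : H), c g ∈ (heightIdeal p n n ^ k • ⊤ : Submodule (E0 p n) M)

/-- `c` is principal: `c g = ρ g m - m`. -/
def IsCoboundary {G M : Type*} [AddCommGroup M] (ρ : G → M → M) (c : G → M) : Prop :=
  ∃ m, ∀ g, c g = ρ g m - m

/-- `H⁰ = {m | ρ g m = m for all g}` is a finitely generated `ℤ_p`-module. -/
def H0FinitelyGenerated {G M : Type*} [AddCommGroup M] (z : ℤ_[p] → M → M) (ρ : G → M → M) :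
    Prop :=
  ∃ (k : ℕ) (e : Fin k → M), (∀ i g, ρ g (e i) = e i) ∧
    ∀ m, (∀ g, ρ g m = m) → ∃ a : Fin k → ℤ_[p], m = ∑ i, z (a i) (e i)

/-- The torsion subgroup of `H¹` (crossed homomorphisms modulo principal ones) is finite: the
crossed homomorphisms with a multiple `p ^ N c` which is principal represent finitely many
classes. -/
def H1TorsionFinite (H : Subgroup (Gn p n F)) [TopologicalSpace H] {M : Type} [AddCommGroup M]
    [Module (E0 p n) M] (ρ : H → M → M) : Prop :=
  ∃ S : Set (H → M), S.Finite ∧ (∀ c ∈ S, IsCocycle H ρ c) ∧ ∀ c, IsCocycle H ρ c →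
    (∃ N : ℕ, IsCoboundary ρ (p ^ N • c)) → ∃ c' ∈ S, IsCoboundary ρ (c - c')

/-- `H¹` is finite. -/
def H1Finite (H : Subgroup (Gn p n F)) [TopologicalSpace H] {M : Type} [AddCommGroup M]
    [Module (E0 p n) M] (ρ : H → M → M) : Prop :=
  ∃ S : Set (H → M), S.Finite ∧ (∀ c ∈ S, IsCocycle H ρ c) ∧
    ∀ c, IsCocycle H ρ c → ∃ c' ∈ S, IsCoboundary ρ (c - c')

end Vale.Agent.P261
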