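import Vale.Agent.P261.R2.H932.H0
import Vale.Agent.P261.R2.H932.Defs

/-!
# P261: from subgroups of `G_n` to groups acting on `E₀`
-/

namespace Vale.Agent.P261.R2.H932

open MvPowerSeries Vale.Agent.P217 Vale.Agent.P217.H934 Topology

variable {p n : ℕ} [Fact p.Prime] {Γ : FormalGroup (ZMod p)} {F : FormalGroup (LT.E0 p n)}

/-- the action of `H` on `E₀`. -/
noncomputable def piH' (H : Subgroup (Gn p n F)) : H →* RingAut (LT.E0 p n) := Gn.pi.comp H.subtype

theorem range_le (hF : LT.IsUniversal p n Γ F) (H : Subgroup (Gn p n F)) :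
    (piH' H).range ≤ LT.actionGroup p n Γ F := by
  rw [← Gn.range_pi hF]
  rintro _ ⟨g, rfl⟩
  exact ⟨(g : Gn p n F), rfl⟩

theorem relIndex_ne (hF : LT.IsUniversal p n Γ F) (H : Subgroup (Gn p n F)) (hH : H.index ≠ 0) :
    (piH' H).range.relIndex (LT.actionGroup p n Γ F) ≠ 0 := by
  rw [← Gn.range_pi hF]
  have h1 : (piH' H).range = H.map Gn.pi := by
    ext φ
    constructor
    · rintro ⟨g, rfl⟩
      exact ⟨g, g.2, rfl⟩
    · rintro ⟨g, hg, rfl⟩
      exact ⟨⟨g, hg⟩, rfl⟩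
  have h2 : (Gn.pi : Gn p n F →* RingAut (LT.E0 p n)).range = (⊤ : Subgroup (Gn p n F)).map Gn.pi :=
    MonoidHom.range_eq_map _
  rw [h1, h2, Subgroup.relIndex_map_map, top_sup_eq, Subgroup.relIndex_top_right]
  exact ne_zero_of_dvd_ne_zero hH (Subgroup.index_dvd_of_le le_sup_left)

/-- a Morava module as an equivariant module for the discrete group `H`. -/
noncomputable def toEq (H : Subgroup (Gn p n F)) {M : Type} [AddCommGroup M] [Module (LT.E0 p n) M]
    {ρ : H → M → M} (h : Vale.Agent.P261.IsMoravaModule H M ρ) :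
    @EqModule (LT.E0 p n) _ H _ ⊥ ⊥ (piH' H) :=
  letI : TopologicalSpace H := ⊥
  { carrier := M
    finite := h.finite
    ρ := fun g =>
      { toFun := ρ g
        invFun := ρ g⁻¹
        left_inv := fun m => by rw [← h.mul, inv_mul_cancel, h.one]
        right_inv := fun m => by rw [← h.mul, mul_inv_cancel, h.one]
        map_add' := h.add g }
    ρ_one := h.one
    ρ_mul := h.mul
    semilinear := h.smul
    continuous := by
      intro m k
      have : DiscreteTopology H := ⟨rfl⟩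
      rw [nhds_discrete, Filter.eventually_pure]
      change ρ 1 m - m ∈ _
      rw [h.one, sub_self]
      exact Submodule.zero_mem _ }

section

variable (hn1 : 1 ≤ n) (hΓ : LT.IsHonda p n Γ) (hF : LT.IsUniversal p n Γ F)
    (hA : LT.HeightAdapted p n F) (H : Subgroup (Gn p n F)) (hH : H.index ≠ 0)

include hn1 hΓ hF hA hH

theorem reps (M : Type) [AddCommGroup M] [Module (LT.E0 p n) M] (ρ : H → M → M)
    (h : Vale.Agent.P261.IsMoravaModule H M ρ) (N : ℕ) : ∃ S : Set M, S.Finite ∧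
    ∀ m : M, (∀ g, ∃ y, ρ g m - m = (p : LT.E0 p n) ^ N • y) →
      ∃ s ∈ S, ∃ y, m - s = (p : LT.E0 p n) ^ N • y :=
  letI : TopologicalSpace H := ⊥
  exists_reps hn1 hΓ hF hA (range_le hF H) (relIndex_ne hF H hH) (toEq H h) N

theorem step (M : Type) [AddCommGroup M] [Module (LT.E0 p n) M] (ρ : H → M → M)
    (h : Vale.Agent.P261.IsMoravaModule H M ρ) : ∃ S : Set M, S.Finite ∧
    (∀ s ∈ S, ∀ g, ρ g s = s) ∧ ∀ v : M, (∀ g, ρ g v = v) →
      ∃ s ∈ S, ∃ v' : M, (∀ g, ρ g v' = v') ∧ v = s + (p : LT.E0 p n) • v' :=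
  letI : TopologicalSpace H := ⊥
  exists_step hn1 hΓ hF hA (range_le hF H) (relIndex_ne hF H hH) (toEq H h)

theorem fin_of_torsion (M : Type) [AddCommGroup M] [Module (LT.E0 p n) M] (ρ : H → M → M)
    (h : Vale.Agent.P261.IsMoravaModule H M ρ)
    (k : ℕ) (hk : ∀ m : M, (p : LT.E0 p n) ^ k • m = 0) : {m : M | ∀ g, ρ g m = m}.Finite :=
  letI : TopologicalSpace H := ⊥
  finite_inv hn1 hΓ hF hA (range_le hF H) (relIndex_ne hF H hH) (toEq H h) k hk

/-- invariant fractions on the strata. -/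
theorem frac (h : ℕ) (hh : 1 ≤ h) (hle : h ≤ n) (a b : LT.E0 p n)
    (hb : b ∉ LT.heightIdeal p n h)
    (hab : ∀ g : H, Gn.pi (g : Gn p n F) a * b - a * Gn.pi (g : Gn p n F) b ∈
      LT.heightIdeal p n h) :
    ∃ c : LT.E0 p n, c ^ p ^ n = c ∧ a - c * b ∈ LT.heightIdeal p n h := by
  obtain ⟨c, hc⟩ := frac_const hn1 hΓ hF hA ((piH' H).range ⊓ strict p n)
    (inf_le_left.trans (range_le hF H))
    (Subgroup.relIndex_inf_ne_zero (relIndex_ne hF H hH) (strict_index hF))
    (fun φ hφ => mem_strict.1 hφ.2) h hh hle a b hb (by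
      rintro φ ⟨⟨g, rfl⟩, -⟩
      exact hab g)
  exact ⟨tch p n c, tch_pow hn1 c, hc⟩

end

end Vale.Agent.P261.R2.H932
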