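import Vale.Agent.P261.R2.H932.Asm
import Vale.Agent.P261.R2.H700.Zp

/-!
# P261: `H⁰` of a Morava module is a finitely generated `ℤ_p`-module
-/

namespace Vale.Agent.P261.R2.H932

open MvPowerSeries Vale.Agent.P217 Vale.Agent.P261.R2.H700

variable {p n : ℕ} [Fact p.Prime] {Γ : FormalGroup (ZMod p)} {F : FormalGroup (LT.E0 p n)}

/-- the invariants. -/
def inv {H : Subgroup (Gn p n F)} {M : Type} [AddCommGroup M] [Module (LT.E0 p n) M]
    {ρ : H → M → M} (h : Vale.Agent.P261.IsMoravaModule H M ρ) : AddSubgroup M where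
  carrier := {m | ∀ g, ρ g m = m}
  add_mem' := by
    intro a b ha hb g
    rw [h.add, ha, hb]
  zero_mem' := by
    intro g
    have h1 := h.add g 0 0
    rw [add_zero] at h1
    exact left_eq_add.1 h1
  neg_mem' := by
    intro a ha g
    have h1 := h.smul g (-1) a
    rw [map_neg, map_one, ha, neg_smul, one_smul] at h1
    exact h1

theorem h0_fg (hn1 : 1 ≤ n) (hΓ : LT.IsHonda p n Γ) (hF : LT.IsUniversal p n Γ F)
    (hA : LT.HeightAdapted p n F) (H : Subgroup (Gn p n F)) (hH : H.index ≠ 0)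
    (M : Type) [AddCommGroup M] [Module (LT.E0 p n) M] (ρ : H → M → M)
    (h : Vale.Agent.P261.IsMoravaModule H M ρ) :
    H0FinitelyGenerated (fun a m => zp p n a • m) ρ := by
  have hf : Module.Finite (LT.E0 p n) M := h.finite
  obtain ⟨S, hS, hSi, hSv⟩ := step hn1 hΓ hF hA H hH M ρ h
  obtain ⟨k, e, he, hV⟩ := fg_of_fin (p := p) (n := n) (M := M) (inv h) (by
    intro a v hv g
    rw [h.smul, map_zp, hv g]) S hS hSi (by
    intro v hv
    obtain ⟨s, hs, v', hv', hvs⟩ := hSv v hv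
    exact ⟨s, hs, v', hv', hvs⟩)
  exact ⟨k, e, he, hV⟩

end Vale.Agent.P261.R2.H932
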