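import Vale.Agent.P261.R2.H932.Asm2
import Vale.Agent.P261.R2.H932.H1

/-!
# P261: the torsion of `H¹` of a `p`-torsion-free Morava module is finite
-/

namespace Vale.Agent.P261.R2.H932

open MvPowerSeries Vale.Agent.P217 Vale.Agent.P261.R2.H700

variable {p n : ℕ} [Fact p.Prime] {Γ : FormalGroup (ZMod p)} {F : FormalGroup (LT.E0 p n)}

theorem cast_smul {M : Type} [AddCommGroup M] [Module (LT.E0 p n) M] (N : ℕ) (y : M) :
    (p : LT.E0 p n) ^ N • y = p ^ N • y := by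
  rw [← Nat.cast_pow, Nat.cast_smul_eq_nsmul]

theorem h1_tors (hn1 : 1 ≤ n) (hΓ : LT.IsHonda p n Γ) (hF : LT.IsUniversal p n Γ F)
    (hA : LT.HeightAdapted p n F) (H : Subgroup (Gn p n F)) (hH : H.index ≠ 0)
    (M : Type) [AddCommGroup M] [Module (LT.E0 p n) M] (ρ : H → M → M)
    (h : Vale.Agent.P261.IsMoravaModule H M ρ)
    (htf : ∀ m : M, (p : LT.E0 p n) • m = 0 → m = 0) (Z : Set (H → M)) :
    ∃ S : Set (H → M), S.Finite ∧ S ⊆ Z ∧ ∀ c ∈ Z,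
      (∃ N : ℕ, IsCoboundary ρ (p ^ N • c)) → ∃ c' ∈ S, IsCoboundary ρ (c - c') := by
  have hf : Module.Finite (LT.E0 p n) M := h.finite
  let r : H → M →+ M := fun g => AddMonoidHom.mk' (ρ g) (h.add g)
  have hinj : ∀ m : M, p • m = 0 → m = 0 := by
    intro m hm
    apply htf
    rw [Nat.cast_smul_eq_nsmul]
    exact hm
  have hsep : ∀ m : M, (∀ N : ℕ, ∃ y, m = p ^ N • y) → m = 0 := by
    intro m hm
    refine sep (p := p) (n := n) m fun N => ?_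
    obtain ⟨y, hy⟩ := hm N
    exact ⟨y, by rw [hy]; exact (cast_smul N y).symm⟩
  have hcomp : ∀ x : ℕ → M, (∀ k, ∃ y, x (k + 1) - x k = p ^ k • y) →
      ∃ m, ∀ k, ∃ y, m - x k = p ^ k • y := by
    intro x hx
    obtain ⟨m, hm⟩ := complete (p := p) (n := n) x (fun k => by
      obtain ⟨y, hy⟩ := hx k
      exact ⟨y, by rw [hy]; exact (cast_smul k y).symm⟩)
    refine ⟨m, fun k => ?_⟩
    obtain ⟨y, hy⟩ := hm k
    exact ⟨y, by rw [hy]; exact cast_smul k y⟩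
  have hfin : ∀ N : ℕ, ∃ S : Set M, S.Finite ∧
      ∀ m, AInv r p N m → ∃ s ∈ S, ∃ y, m - s = p ^ N • y := by
    intro N
    obtain ⟨S, hS, hSm⟩ := reps hn1 hΓ hF hA H hH M ρ h N
    refine ⟨S, hS, fun m hm => ?_⟩
    obtain ⟨s, hs, y, hy⟩ := hSm m (fun g => by
      obtain ⟨y, hy⟩ := hm g
      exact ⟨y, by rw [cast_smul]; exact hy⟩)
    exact ⟨s, hs, y, by rw [hy, cast_smul]⟩
  obtain ⟨S, hS, hSZ, hall⟩ := H1_tors_finite (ρ := r) (q := p) hinj hsep hcomp hfin Z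
  refine ⟨S, hS, hSZ, ?_⟩
  rintro c hc ⟨N, m, hm⟩
  obtain ⟨c', hc', m', hm'⟩ := hall c hc ⟨N, m, hm⟩
  exact ⟨c', hc', m', hm'⟩

end Vale.Agent.P261.R2.H932
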