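import Vale.Agent.P217.Bdl.B3

/-!
# P261: points of the stratum of height `n - 1` have infinite orbits
-/

namespace Vale.Agent.P261.R2.H932

open MvPowerSeries Vale.Agent.P217

section Local

variable {K : Type*} [NontriviallyNormedField K] [IsUltrametricDist K] [CompleteSpace K]
variable {p : ℕ} [Fact p.Prime] [CharP K p] [IsAlgClosed K]
variable {n h : ℕ} {Γ : FormalGroup (OK K)} [Γ.IsComm]

/-- If the lattice has rank one, the norms of its nonzero elements are `ρ ^ (p ^ (n k))`. -/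
theorem norm_lattice (D : LocalFG p n h Γ) (h1 : h + 1 = n) : ∃ ρ : ℝ, 0 < ρ ∧ ρ < 1 ∧
    ∀ Y ∈ D.Lam, Y ≠ 0 → ∃ k : ℕ, ‖Y.val‖ = ρ ^ (p ^ (n * k)) := by
  classical
  obtain ⟨Y0, hY0, hne, hmax⟩ := D.exists_max_norm
  have hpos : 0 < ‖Y0.val‖ := LocalFG.norm_val_pos hne
  have hp1 : 1 < p := (Fact.out : p.Prime).one_lt
  refine ⟨‖Y0.val‖, hpos, Y0.norm_val_lt, fun Z hZ hZ0 => ?_⟩
  obtain ⟨N, Y, hY, hYp, rfl⟩ := D.exists_primitive Z hZ hZ0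
  refine ⟨N, ?_⟩
  rw [D.norm_pow_smul_Gam]
  congr 1
  refine le_antisymm (hmax Y hY) ?_
  have hcard : Nat.card (D.Lam ⧸ (D.pLam 1).addSubgroupOf D.Lam) = p := by
    have h2 := D.relIndex_pLam 1
    rw [show (n - h) * 1 = 1 by omega, pow_one] at h2
    exact h2
  set y : D.Lam ⧸ (D.pLam 1).addSubgroupOf D.Lam := QuotientAddGroup.mk ⟨Y, hY⟩ with hy
  set y0 : D.Lam ⧸ (D.pLam 1).addSubgroupOf D.Lam := QuotientAddGroup.mk ⟨Y0, hY0⟩ with hy0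
  have hyne : y ≠ 0 := by
    intro h0
    rw [hy, QuotientAddGroup.eq_zero_iff, AddSubgroup.mem_addSubgroupOf] at h0
    obtain ⟨Y', hY', h3⟩ := D.mem_pLam.1 h0
    exact hYp ⟨Y', hY', by rw [pow_one] at h3; exact h3⟩
  obtain ⟨a, ha⟩ := AddSubgroup.mem_zmultiples_iff.1
    (mem_zmultiples_of_prime_card (p := p) hcard hyne (g' := y0))
  have h4 : Y0 - a • Y ∈ D.pLam 1 := by
    have h5 : (QuotientAddGroup.mk (⟨Y0, hY0⟩ - a • ⟨Y, hY⟩ : D.Lam) :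
        D.Lam ⧸ (D.pLam 1).addSubgroupOf D.Lam) = 0 := by
      rw [QuotientAddGroup.mk_sub, QuotientAddGroup.mk_zsmul, ← hy, ← hy0, ha, sub_self]
    rw [QuotientAddGroup.eq_zero_iff, AddSubgroup.mem_addSubgroupOf] at h5
    exact h5
  obtain ⟨W, hW, h6⟩ := D.mem_pLam.1 h4
  have h7 : Y0 = a • Y + p ^ 1 • W := by rw [← h6]; abel
  have h8 : ‖(p ^ 1 • W).val‖ < ‖Y0.val‖ := by
    rw [D.norm_pow_smul_Gam, mul_one]
    have h9 : ‖W.val‖ ^ p ^ n ≤ ‖Y0.val‖ ^ p ^ n :=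
      pow_le_pow_left₀ (norm_nonneg _) (hmax W hW) _
    refine h9.trans_lt ?_
    have h10 : 1 < p ^ n := Nat.one_lt_pow (by omega) hp1
    have h11 := pow_lt_pow_right_of_lt_one₀ hpos Y0.norm_val_lt h10
    rwa [pow_one] at h11
  have h12 : ‖Y0.val‖ ≤ max ‖(a • Y).val‖ ‖(p ^ 1 • W).val‖ := by
    conv_lhs => rw [h7]
    exact FPt.norm_val_add_le _ _
  rcases le_max_iff.1 h12 with h13 | h13
  · exact h13.trans (FPt.norm_val_zsmul_le _ _)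
  · exact absurd h13 (not_le.2 h8)

end Local

section Orbit

variable {K : Type*} [NontriviallyNormedField K] [IsUltrametricDist K] [CompleteSpace K]
variable {p : ℕ} [Fact p.Prime] [CharP K p] [IsAlgClosed K]
variable {n h : ℕ}
variable {κ : Type*} [Field κ] [Algebra κ (OK K)] {Γ₀ : FormalGroup κ}

theorem E_transport (hΓ₀ : HondaLike p n Γ₀) [hΓc : (Γ₀.map (algebraMap κ (OK K))).IsComm]
    (A : FamFG p n h κ Γ₀) (v v' : Fin (n - h) → MK K) (hv : (v A.i0 : OK K) ≠ 0)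
    (hv' : (v' A.i0 : OK K) ≠ 0) (e : v = v') (Z : FPt (Γ₀.map (algebraMap κ (OK K))))
    (hZ : (A.fib hΓ₀ v hv).E Z = 0) : (A.fib hΓ₀ v' hv').E Z = 0 := by
  subst e
  exact hZ

/-- The points `g_{1,l}(u)`, `n ∤ l`, are pairwise different. -/
theorem orbit_ne (hΓ₀ : HondaLike p n Γ₀) [hΓc : (Γ₀.map (algebraMap κ (OK K))).IsComm]
    (A : FamFG p n h κ Γ₀) (h1 : h + 1 = n) (u : Fin (n - h) → MK K) (hu : (u A.i0 : OK K) ≠ 0)
    {l l' : ℕ} (hll : l < l') (hl : 1 ≤ l) (hnl : ¬ n ∣ l) (L : Lift A 1 l) (L' : Lift A 1 l') :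
    L.pt u ≠ L'.pt u := by
  intro he
  have hp1 : 1 < p := (Fact.out : p.Prime).one_lt
  have hone : (1 : κ) ^ p ^ n = 1 := one_pow _
  obtain ⟨Y, hY, hY0, -⟩ := (A.fib hΓ₀ u hu).exists_max_norm
  have hYE := (A.fib hΓ₀ u hu).mem_Lam.1 hY
  have hYpos : 0 < ‖Y.val‖ := LocalFG.norm_val_pos hY0
  have hYlt := Y.norm_val_lt
  have e1 : (A.fib hΓ₀ (L.pt u) (L.pt_ne_zero u hu)).E
      (Y + powPt p (algebraMap κ (OK K) 1) l Y) = 0 := by
    rw [← L.tau_E hΓ₀ hone u hu, hYE, map_zero]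
  have e2 : (A.fib hΓ₀ (L'.pt u) (L'.pt_ne_zero u hu)).E
      (Y + powPt p (algebraMap κ (OK K) 1) l' Y) = 0 := by
    rw [← L'.tau_E hΓ₀ hone u hu, hYE, map_zero]
  have e2' := E_transport hΓ₀ A _ _ _ (L.pt_ne_zero u hu) he.symm _ e2
  rw [map_one] at e1 e2'
  set D := A.fib hΓ₀ (L.pt u) (L.pt_ne_zero u hu) with hD
  obtain ⟨ρ, hρ0, hρ1, hρ⟩ := norm_lattice D h1
  have hlt : ∀ m : ℕ, 1 ≤ m → ‖Y.val‖ ^ (p ^ m) < ‖Y.val‖ := by
    intro m hm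
    have h3 := pow_lt_pow_right_of_lt_one₀ hYpos hYlt (Nat.one_lt_pow (by omega : m ≠ 0) hp1)
    rwa [pow_one] at h3
  -- the norm of `Y + S^l Y`
  have n1 : ‖(Y + powPt p 1 l Y).val‖ = ‖Y.val‖ := by
    have h3 := FPt.norm_val_add_sub_right (powPt p 1 l Y) Y
    rw [norm_powPt_one, add_comm] at h3
    have h4 : (Y + powPt p 1 l Y).val = ((Y + powPt p 1 l Y).val - Y.val) + Y.val := by ring
    have h5 : ‖(Y + powPt p 1 l Y).val - Y.val‖ < ‖Y.val‖ := by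
      rw [h3]
      exact hlt l hl
    rw [h4, IsUltrametricDist.norm_add_eq_max_of_norm_ne_norm h5.ne, max_eq_right h5.le]
  have m1 : Y + powPt p 1 l Y ∈ D.Lam := D.mem_Lam.2 e1
  have m2 : Y + powPt p 1 l' Y ∈ D.Lam := D.mem_Lam.2 e2'
  have m3 : powPt p 1 l Y - powPt p 1 l' Y ∈ D.Lam := by
    have := D.Lam.sub_mem m1 m2
    rwa [add_sub_add_left_eq_sub] at this
  have z1 : Y + powPt p 1 l Y ≠ 0 := by
    intro h0
    rw [h0, FPt.val_zero, norm_zero] at n1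
    exact hYpos.ne n1
  -- the norm of `S^l Y - S^l' Y`
  have n3 : ‖(powPt p 1 l Y - powPt p 1 l' Y).val‖ = ‖Y.val‖ ^ (p ^ l) := by
    rw [FPt.norm_val_sub]
    have h5 : ‖(powPt p 1 l' Y).val‖ < ‖(powPt p 1 l Y).val‖ := by
      rw [norm_powPt_one, norm_powPt_one]
      exact pow_lt_pow_right_of_lt_one₀ hYpos hYlt (Nat.pow_lt_pow_right hp1 hll)
    have h6 : ‖-(powPt p 1 l' Y).val‖ < ‖(powPt p 1 l Y).val‖ := by rwa [norm_neg]
    rw [sub_eq_add_neg, IsUltrametricDist.norm_add_eq_max_of_norm_ne_norm h6.ne',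
      max_eq_left h6.le, norm_powPt_one]
  have z3 : powPt p 1 l Y - powPt p 1 l' Y ≠ 0 := by
    intro h0
    rw [h0, FPt.val_zero, norm_zero] at n3
    exact (pow_pos hYpos _).ne n3
  obtain ⟨k, hk⟩ := hρ _ m1 z1
  obtain ⟨k', hk'⟩ := hρ _ m3 z3
  rw [n1] at hk
  rw [n3, hk, ← pow_mul, ← pow_add] at hk'
  have h7 : p ^ (n * k + l) = p ^ (n * k') :=
    pow_right_injective₀ hρ0 hρ1.ne hk'
  have h8 : n * k + l = n * k' := Nat.pow_right_injective hp1 h7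
  apply hnl
  exact (Nat.dvd_add_right (dvd_mul_right n k)).1 (h8 ▸ dvd_mul_right n k')

end Orbit

end Vale.Agent.P261.R2.H932
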