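import Vale.Agent.P261.R2.H932.Base

/-!
# P261: no invariant functions on the stratum of height `n - 1`
-/

namespace Vale.Agent.P261.R2.H932

open MvPowerSeries Vale.Agent.P217

section Fiber

variable {K : Type*} [NontriviallyNormedField K] [IsUltrametricDist K] [CompleteSpace K]
variable {κ : Type*} [Field κ] [Algebra κ (OK K)]

/-- The fibres of a non-constant power series in one variable are finite. -/
theorem finite_fiber (f ε : MvPowerSeries (Fin 1) κ) (hε : IsUnit ε) (k : ℕ) (hk : 1 ≤ k)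
    (hf : f = ε * X 0 ^ k) (c : OK K) :
    Set.Finite {y : MK K | evk κ (fun _ : Fin 1 => y) f = c} := by
  classical
  rcases Set.eq_empty_or_nonempty {y : MK K | evk κ (fun _ : Fin 1 => y) f = c} with h0 | ⟨y0, hy0⟩
  · rw [h0]; exact Set.finite_empty
  have hf0 : constantCoeff f = 0 := by
    rw [hf, map_mul, map_pow, constantCoeff_X, zero_pow (by omega), mul_zero]
  have hc : ‖c‖ < 1 := by
    rw [← show evk κ (fun _ : Fin 1 => y0) f = c from hy0]
    exact (norm_evk_lt _ _).2 hf0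
  have hX : ∀ i : Fin 1, constantCoeff ((fun _ : Fin 1 => (PowerSeries.X : PowerSeries κ)) i) = 0 :=
    fun _ => PowerSeries.constantCoeff_X
  have hs : HasSubst (fun _ : Fin 1 => (PowerSeries.X : PowerSeries κ)) :=
    hasSubst_of_constantCoeff_zero hX
  set f1 : PowerSeries κ := MvPowerSeries.subst (fun _ : Fin 1 => (PowerSeries.X : PowerSeries κ)) f
    with hf1
  set ε1 : PowerSeries κ := MvPowerSeries.subst (fun _ : Fin 1 => (PowerSeries.X : PowerSeries κ)) ε
    with hε1
  have hfe : f1 = ε1 * PowerSeries.X ^ k := by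
    rw [hf1, hf, subst_mul hs, subst_pow hs, subst_X hs]
  have hε1u : IsUnit ε1 := by
    have h1 := hε.map (substAlgHom (R := κ) hs)
    rwa [coe_substAlgHom] at h1
  have hev : ∀ y : MK K, evk κ (fun _ : Unit => y) f1 = evk κ (fun _ : Fin 1 => y) f := by
    intro y
    refine evk_subst _ _ _ hX _ fun i => ?_
    exact (evk_X (κ := κ) (fun _ : Unit => y) ()).symm
  let c' : Fin 1 → MK K := fun _ => ⟨c, hc⟩
  let g : PowerSeries (MvPowerSeries (Fin 1) κ) :=
    PowerSeries.map (C : κ →+* MvPowerSeries (Fin 1) κ) f1 - PowerSeries.C (X 0)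
  have hgk : PowerSeries.coeff k (g.map (IsLocalRing.residue _)) ≠ 0 := by
    rw [PowerSeries.coeff_map, map_residue_ne_zero_iff, MvPowerSeries.isUnit_iff_constantCoeff]
    have h2 : PowerSeries.coeff k g = C (PowerSeries.constantCoeff ε1) := by
      rw [map_sub, PowerSeries.coeff_map, PowerSeries.coeff_C, if_neg (by omega), sub_zero, hfe]
      congr 1
      have h3 := PowerSeries.coeff_mul_X_pow ε1 k 0
      rw [zero_add] at h3
      rw [h3, PowerSeries.coeff_zero_eq_constantCoeff_apply]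
    rw [h2, constantCoeff_C]
    exact (PowerSeries.isUnit_iff_constantCoeff).1 hε1u
  have hne : g.map (IsLocalRing.residue _) ≠ 0 := fun h0 => hgk (by rw [h0, map_zero])
  obtain ⟨P, h, H⟩ := g.exists_isWeierstrassFactorization hne
  have hPm : (P.map (evk κ c')).Monic := H.isDistinguishedAt.monic.map _
  refine Set.Finite.subset (Set.Finite.preimage (Subtype.val_injective.injOn)
    (P.map (evk κ c')).roots.toFinset.finite_toSet) ?_
  intro y hy
  rw [Set.mem_preimage, Finset.mem_coe, Multiset.mem_toFinset, Polynomial.mem_roots hPm.ne_zero,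
    Polynomial.IsRoot.def]
  have h4 : ev (fun _ : Unit => y) (PowerSeries.map (evk κ c') g) = 0 := by
    change ev (fun _ : Unit => y) (PowerSeries.map (evk κ c')
      (PowerSeries.map (C : κ →+* MvPowerSeries (Fin 1) κ) f1 - PowerSeries.C (X 0))) = 0
    rw [map_sub, map_sub, PowerSeries.map_C, evk_X]
    have h5 : ev (fun _ : Unit => y) (PowerSeries.C ((c' 0 : MK K) : OK K)) = c := ev_C _ _
    have h6 : PowerSeries.map (evk κ c') (PowerSeries.map (C : κ →+* MvPowerSeries (Fin 1) κ) f1) =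
        PowerSeries.map (algebraMap κ (OK K)) f1 := by
      ext j
      rw [PowerSeries.coeff_map, PowerSeries.coeff_map, PowerSeries.coeff_map, evk_C]
    rw [h5, h6]
    have h7 : ev (fun _ : Unit => y) (PowerSeries.map (algebraMap κ (OK K)) f1) =
        evk κ (fun _ : Unit => y) f1 := rfl
    rw [h7, hev y, show evk κ (fun _ : Fin 1 => y) f = c from hy, sub_self]
  rw [H.eq_mul, map_mul, map_mul] at h4
  have h8 : IsUnit (ev (fun _ : Unit => y) (PowerSeries.map (evk κ c') h)) :=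
    (H.isUnit.map (PowerSeries.map (evk κ c'))).map (ev (fun _ : Unit => y))
  rw [h8.mul_left_eq_zero, ← Polynomial.polynomial_map_coe, ev_coe_poly] at h4
  exact h4

theorem finite_fiber' {m : ℕ} (hm : m = 1) (i0 : Fin m) (f ε : MvPowerSeries (Fin m) κ)
    (hε : IsUnit ε) (k : ℕ) (hk : 1 ≤ k) (hf : f = ε * X i0 ^ k) (c : OK K) :
    Set.Finite {y : Fin m → MK K | evk κ y f = c} := by
  subst hm
  have h0 : i0 = 0 := Subsingleton.elim _ _
  subst h0
  have h1 := finite_fiber f ε hε k hk hf c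
  refine Set.Finite.subset (h1.image fun y => (fun _ : Fin 1 => y)) ?_
  intro y hy
  refine ⟨y 0, ?_, ?_⟩
  · have h2 : (fun _ : Fin 1 => y 0) = y := by
      funext i
      rw [Subsingleton.elim i 0]
    change evk κ (fun _ : Fin 1 => y 0) f = c
    rw [h2]
    exact hy
  · funext i
    rw [Subsingleton.elim i 0]

end Fiber

/-- On the stratum of height `n - 1` no `ε u ^ k` takes the same value under infinitely many of the
substitutions `g_{1,l}`, `n ∤ l`. -/
theorem base {p : ℕ} [Fact p.Prime] {n h : ℕ} {κ : Type*} [Field κ] [CharP κ p]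
    {Γ₀ : FormalGroup κ} (hΓ₀ : HondaLike p n Γ₀) (A : FamFG p n h κ Γ₀) (h1 : h + 1 = n)
    (f ε : MvPowerSeries (Fin (n - h)) κ) (hε : IsUnit ε) (k : ℕ) (hk : 1 ≤ k)
    (hf : f = ε * X A.i0 ^ k) (S : Set ℕ) (hS : S.Infinite) (hS1 : ∀ l ∈ S, 1 ≤ l ∧ ¬ n ∣ l)
    (L : ∀ l : ℕ, l ∈ S → Lift A 1 l)
    (hL : ∀ (l : ℕ) (hl : l ∈ S) (l' : ℕ) (hl' : l' ∈ S), (L l hl).φ f = (L l' hl').φ f) :
    False := by
  classical
  obtain ⟨K, _, _, _, _, _, _, hgen⟩ := exists_field_generic p κ
  have hΓ₀c : Γ₀.IsComm := hΓ₀.comm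
  have hΓc : (Γ₀.map (algebraMap κ (OK K))).IsComm := core_isComm_map _
  obtain ⟨x, hx0, hx1⟩ := NormedField.exists_norm_lt_one K
  let xx : MK K := ⟨⟨x, hx1.le⟩, hx1⟩
  let u : Fin (n - h) → MK K := fun _ => xx
  have hu : (u A.i0 : OK K) ≠ 0 := by
    intro h0
    have h2 : x = 0 := congrArg (fun z : OK K => (z : K)) h0
    rw [h2, norm_zero] at hx0
    exact lt_irrefl _ hx0
  obtain ⟨l0, hl0⟩ := hS.nonempty
  have hfin := finite_fiber' (K := K) (by omega : n - h = 1) A.i0 f ε hε k hk hf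
    (evk κ u ((L l0 hl0).φ f))
  let q : ℕ → Fin (n - h) → MK K := fun l => if hl : l ∈ S then (L l hl).pt u else u
  have hmaps : Set.MapsTo q S {y : Fin (n - h) → MK K | evk κ y f = evk κ u ((L l0 hl0).φ f)} := by
    intro l hl
    change evk κ (q l) f = _
    simp only [q, dif_pos hl]
    rw [(L l hl).evk_pt, RingHom.comp_apply, RingHom.coe_coe, hL l hl l0 hl0]
  obtain ⟨l, hl, l', hl', hne, heq⟩ := hS.exists_ne_map_eq_of_mapsTo hmaps hfin
  simp only [q, dif_pos hl, dif_pos hl'] at heq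
  rcases lt_or_gt_of_ne hne with hlt | hlt
  · exact orbit_ne hΓ₀ A h1 u hu hlt (hS1 l hl).1 (hS1 l hl).2 (L l hl) (L l' hl') heq
  · exact orbit_ne hΓ₀ A h1 u hu hlt (hS1 l' hl').1 (hS1 l' hl').2 (L l' hl') (L l hl) heq.symm

end Vale.Agent.P261.R2.H932
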