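import Vale.Agent.P261.R2.H932.Base2
import Vale.Agent.P217.H260.Main

/-!
# P261: invariant functions on the strata are constant
-/

namespace Vale.Agent.P261.R2.H932

open MvPowerSeries Vale.Agent.P217

variable {p n : ℕ} [Fact p.Prime] {Γ : FormalGroup (ZMod p)} {F : FormalGroup (P217.E0 p n)}

/-- the leading coefficient of `[p]_F` on the stratum of height `j`. -/
noncomputable def lead (F : FormalGroup (P217.E0 p n)) (j : ℕ) : P217.E0 p n :=
  PowerSeries.coeff (p ^ j) (multSeries F p)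

theorem coeff_low (hH : P217.HeightAdapted p n F) (j : ℕ) (hj : 1 ≤ j) (hjn : j ≤ n)
    (i : ℕ) (hi : i < p ^ j) : PowerSeries.coeff i (multSeries F p) ∈ P217.heightIdeal p n j := by
  rw [hH j hj hjn]
  exact Ideal.subset_span (Or.inr ⟨i, hi, rfl⟩)

/-- The transformation law of the leading coefficient. -/
theorem trans_law (hF : P217.IsUniversalDeformation p n Γ F) (hH : P217.HeightAdapted p n F)
    (j : ℕ) (hj : 1 ≤ j) (hjn : j ≤ n) (φ : RingAut (P217.E0 p n)) (g : PowerSeries (P217.E0 p n))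
    (hg : P217.IsIso F (F.map (φ : P217.E0 p n →+* P217.E0 p n)) g) :
    piH p n j hj hjn (PowerSeries.coeff 1 g) * piH p n j hj hjn (lead F j) =
      piH p n j hj hjn (φ (lead F j)) * (piH p n j hj hjn (PowerSeries.coeff 1 g)) ^ (p ^ j) := by
  have hp : p ≠ 0 := (Fact.out : p.Prime).ne_zero
  have hQ : p ^ j ≠ 0 := pow_ne_zero _ hp
  have hFc : F.IsComm := hF.comm
  have : CharP (MvPowerSeries (Fin (n - j)) (GaloisField p n)) p := HT_charP_mvPowerSeries p
  set π := piH p n j hj hjn with hπ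
  set f : P217.E0 p n →+* P217.E0 p n := (φ : P217.E0 p n →+* P217.E0 p n) with hf
  have c1 : (F.map π).IsComm := P217.isComm_map F hF.comm _
  have c2 : ((F.map f).map π).IsComm := P217.isComm_map _ (P217.isComm_map F hF.comm _) _
  have low1 : ∀ i < p ^ j, PowerSeries.coeff i (multSeries (F.map π) p) = 0 := by
    intro i hi
    rw [P217.multSeries_map, PowerSeries.coeff_map, ← RingHom.mem_ker, hπ, ker_piH]
    exact coeff_low hH j hj hjn i hi
  have low2 : ∀ i < p ^ j, PowerSeries.coeff i (multSeries ((F.map f).map π) p) = 0 := by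
    intro i hi
    rw [P217.multSeries_map, P217.multSeries_map, PowerSeries.coeff_map, PowerSeries.coeff_map,
      ← RingHom.mem_ker, hπ, ker_piH]
    have h1 := isInvariant_heightIdeal_of_adapted hH j hjn φ g hg
    rw [← h1]
    exact Ideal.mem_map_of_mem _ (coeff_low hH j hj hjn i hi)
  obtain ⟨V1, hV1, hV1h⟩ := exists_V_of_coeff_eq_zero p (F.map π) j low1
  obtain ⟨V2, hV2, hV2h⟩ := exists_V_of_coeff_eq_zero p ((F.map f).map π) j low2
  have h2 := (hg.1.map π).coeff_one_rel hQ p hV1h.1 hV2h.1 hV1 hV2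
  have hone : ∀ V : PowerSeries (MvPowerSeries (Fin (n - j)) (GaloisField p n)),
      PowerSeries.coeff 1 V = PowerSeries.coeff (p ^ j)
        (PowerSeries.subst (PowerSeries.X ^ (p ^ j) :
          PowerSeries (MvPowerSeries (Fin (n - j)) (GaloisField p n))) V :
          PowerSeries (MvPowerSeries (Fin (n - j)) (GaloisField p n))) := by
    intro V
    rw [← PowerSeries.expand_apply (p ^ j) hQ, PowerSeries.coeff_expand, if_pos dvd_rfl,
      Nat.div_self (Nat.pos_of_ne_zero hQ)]
  rw [hone V1, hone V2, ← hV1, ← hV2, P217.multSeries_map, P217.multSeries_map,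
    P217.multSeries_map, PowerSeries.coeff_map, PowerSeries.coeff_map, PowerSeries.coeff_map,
    PowerSeries.coeff_map] at h2
  exact h2

theorem mem_heightIdeal_top (hn : 1 ≤ n) (x : P217.E0 p n) :
    x ∈ P217.heightIdeal p n n ↔ red p n x = 0 := by
  rw [← ker_piH n hn le_rfl, RingHom.mem_ker, ← constantCoeff_piH n hn le_rfl]
  constructor
  · intro h
    rw [h, map_zero]
  · intro h
    ext d
    have hd : d = 0 := by
      ext i
      exact absurd i.2 (by simp)
    rw [hd, coeff_zero_eq_constantCoeff_apply, h, map_zero]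

theorem mem_heightIdeal_iff (j : ℕ) (hj : 1 ≤ j) (hjn : j ≤ n) (x : P217.E0 p n) :
    x ∈ P217.heightIdeal p n j ↔ piH p n j hj hjn x = 0 := by
  rw [← ker_piH j hj hjn, RingHom.mem_ker]

/-- the image of the leading coefficient. -/
theorem piH_lead (hn1 : 1 ≤ n) (hΓ : P217.IsHonda p n Γ)
    (hF : P217.IsUniversalDeformation p n Γ F) (hH : P217.HeightAdapted p n F)
    (j : ℕ) (hj : 1 ≤ j) (hjn : j < n) :
    ∃ e : MvPowerSeries (Fin (n - j)) (GaloisField p n), IsUnit e ∧
      piH p n j hj hjn.le (lead F j) = e * X (⟨0, Nat.sub_pos_of_lt hjn⟩ : Fin (n - j)) := by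
  have hp : p ≠ 0 := (Fact.out : p.Prime).ne_zero
  have hQ : p ^ j ≠ 0 := pow_ne_zero _ hp
  obtain ⟨A, hA⟩ := exists_famFG hn1 hΓ hF hH j hj hjn
  obtain ⟨e, he, hV⟩ := A.V_one
  refine ⟨e, he, ?_⟩
  rw [← hV]
  have h1 := congrArg (PowerSeries.coeff (p ^ j)) A.series
  rw [← PowerSeries.expand_apply (p ^ j) hQ, PowerSeries.coeff_expand, if_pos dvd_rfl,
      Nat.div_self (Nat.pos_of_ne_zero hQ), hA, P217.multSeries_map, PowerSeries.coeff_map] at h1
  exact h1

theorem prime_X (hn1 : 1 ≤ n) (j : ℕ) (hj : 1 ≤ j) (hjn : j < n) :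
    Prime (X (⟨0, Nat.sub_pos_of_lt hjn⟩ : Fin (n - j)) :
      MvPowerSeries (Fin (n - j)) (GaloisField p n)) := by
  have hD : IsDomain (MvPowerSeries (Fin (n - j)) (GaloisField p n)) := NoZeroDivisors.to_isDomain _
  have h1 := map_piH_heightIdeal (p := p) j hj hjn.le (j + 1) (by omega)
  have h2 : {x : MvPowerSeries (Fin (n - j)) (GaloisField p n) |
      ∃ i : Fin (n - j), (i : ℕ) + j < j + 1 ∧ x = X i} =
      {X (⟨0, Nat.sub_pos_of_lt hjn⟩ : Fin (n - j))} := by
    ext x
    simp only [Set.mem_ofPred_eq, Set.mem_singleton_iff]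
    constructor
    · rintro ⟨i, hi, rfl⟩
      congr 1
      ext
      change (i : ℕ) = 0
      omega
    · rintro rfl
      exact ⟨_, by simp, rfl⟩
  rw [h2] at h1
  have h3 : (P217.heightIdeal p n (j + 1)).IsPrime := isPrime_heightIdeal hn1 (j + 1) hjn
  have h4 : ((P217.heightIdeal p n (j + 1)).map (piH p n j hj hjn.le)).IsPrime :=
    Ideal.map_isPrime_of_surjective (piH_surjective j hj hjn.le)
      (by rw [ker_piH]; exact H260.heightIdeal_mono (Nat.le_succ j))
  rw [h1] at h4
  refine (Ideal.span_singleton_prime ?_).1 h4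
  intro h0
  have h5 := order_X (κ := GaloisField p n) (⟨0, Nat.sub_pos_of_lt hjn⟩ : Fin (n - j))
  rw [h0, order_zero] at h5
  exact absurd h5 (by simp)

/-- the lift of `g_{ω,l}` attached to a given lift to `E₀`. -/
theorem lift_of (hn1 : 1 ≤ n) (hH : P217.HeightAdapted p n F)
    (j : ℕ) (hj : 1 ≤ j) (hjn : j < n)
    (A : FamFG p n j (GaloisField p n) (Γ.map (algebraMap (ZMod p) (GaloisField p n))))
    (hA : A.G = F.map (piH p n j hj hjn.le))
    (ω : GaloisField p n) (l : ℕ) (φ : P217.E0 p n ≃+* P217.E0 p n)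
    (ψ : PowerSeries (P217.E0 p n))
    (hred : (red p n).comp (φ : P217.E0 p n →+* P217.E0 p n) = red p n)
    (hiso : P217.IsIso F (F.map (φ : P217.E0 p n →+* P217.E0 p n)) ψ)
    (hψ : ψ.map (red p n) = gser p (Γ.map (algebraMap (ZMod p) (GaloisField p n))) ω l) :
    ∃ L : Lift A ω l, ∀ x, L.φ (piH p n j hj hjn.le x) = piH p n j hj hjn.le (φ x) := by
  have hinv := isInvariant_heightIdeal_of_adapted hH j hjn.le φ ψ hiso
  obtain ⟨φ', hφ', hφ0⟩ := exists_descent hn1 j hj hjn.le (φ : P217.E0 p n →+* P217.E0 p n) hred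
    hinv.le
  have hg : P217.IsIso A.G (A.G.map (φ' : MvPowerSeries (Fin (n - j)) (GaloisField p n) →+*
      MvPowerSeries (Fin (n - j)) (GaloisField p n))) (ψ.map (piH p n j hj hjn.le)) := by
    have h1 := hiso.fbMap (piH p n j hj hjn.le)
    rw [fbMap_map, ← hφ', ← fbMap_map, ← hA] at h1
    exact h1
  have hredg : (ψ.map (piH p n j hj hjn.le)).map MvPowerSeries.constantCoeff =
      gser p (Γ.map (algebraMap (ZMod p) (GaloisField p n))) ω l := by
    rw [← hψ]
    ext i
    rw [PowerSeries.coeff_map, PowerSeries.coeff_map, PowerSeries.coeff_map, constantCoeff_piH]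
  exact ⟨⟨φ', hφ0, _, hg, hredg⟩, fun x => RingHom.congr_fun hφ' x⟩

end Vale.Agent.P261.R2.H932
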