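import Vale.Agent.P261.R2.H932.Const

/-!
# P261: invariant functions on the strata are constant (proof)
-/

namespace Vale.Agent.P261.R2.H932

open MvPowerSeries Vale.Agent.P217

variable {p n : ℕ} [Fact p.Prime] {Γ : FormalGroup (ZMod p)} {F : FormalGroup (P217.E0 p n)}

theorem actIso_of_mem (hF : P217.IsUniversalDeformation p n Γ F) {φ : RingAut (P217.E0 p n)}
    (hφ : φ ∈ LT.actionGroup p n Γ F) :
    ∃ g, P217.IsIso F (F.map (φ : P217.E0 p n →+* P217.E0 p n)) g :=
  (H260.acts_iff_actIso hF φ).1 ((H260.mem_actionGroup hF φ).1 hφ)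

/-- The case of the stratum of height `n - 1`. -/
theorem step_base (hn1 : 1 ≤ n) (hΓ : P217.IsHonda p n Γ)
    (hF : P217.IsUniversalDeformation p n Γ F) (hH : P217.HeightAdapted p n F)
    (U : Subgroup (RingAut (P217.E0 p n)))
    (hfin : U.relIndex (LT.actionGroup p n Γ F) ≠ 0)
    (h : ℕ) (hh : 1 ≤ h) (h1 : h + 1 = n) (hlt : h < n) (f : P217.E0 p n)
    (hinv : ∀ φ ∈ U, φ f - f ∈ P217.heightIdeal p n h)
    (ε : MvPowerSeries (Fin (n - h)) (GaloisField p n)) (hε : IsUnit ε) (k : ℕ) (hk : 1 ≤ k)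
    (hf : piH p n h hh hlt.le f = ε * X (⟨0, Nat.sub_pos_of_lt hlt⟩ : Fin (n - h)) ^ k) :
    False := by
  classical
  have hΓ₀ := IsHonda.hondaLike hn1 hΓ (GaloisField p n) (algebraMap (ZMod p) (GaloisField p n))
  obtain ⟨A, hA⟩ := exists_famFG hn1 hΓ hF hH h hh hlt
  have hex : ∀ m : ℕ, ∃ (φ : P217.E0 p n ≃+* P217.E0 p n) (ψ : PowerSeries (P217.E0 p n)),
      (red p n).comp (φ : P217.E0 p n →+* P217.E0 p n) = red p n ∧
      P217.IsIso F (F.map (φ : P217.E0 p n →+* P217.E0 p n)) ψ ∧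
      ψ.map (red p n) = gser p (Γ.map (algebraMap (ZMod p) (GaloisField p n))) 1 (n * m + 1) :=
    fun m => exists_phi hF _ (isIso_gser hΓ₀ 1 (n * m + 1) (by omega))
  choose φ ψ hred hiso hψ using hex
  have hmem : ∀ m, (φ m : RingAut (P217.E0 p n)) ∈ LT.actionGroup p n Γ F := fun m =>
    (H260.mem_actionGroup hF _).2 ((H260.acts_iff_actIso hF _).2 ⟨ψ m, hiso m⟩)
  set K := LT.actionGroup p n Γ F with hK
  set V : Subgroup K := U.subgroupOf K with hV
  have hVf : V.FiniteIndex := ⟨hfin⟩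
  have hVq : Finite (K ⧸ V) := Subgroup.finite_quotient_of_finiteIndex
  let q : ℕ → K ⧸ V := fun m => QuotientGroup.mk ⟨φ m, hmem m⟩
  obtain ⟨y, hy⟩ := Finite.exists_infinite_fiber q
  have hT : (q ⁻¹' {y}).Infinite := Set.infinite_coe_iff.1 hy
  obtain ⟨m0, hm0⟩ := hT.nonempty
  have hinj : Function.Injective (fun m : ℕ => n * m + 1) := by
    intro a b hab
    simp only [Nat.add_right_cancel_iff] at hab
    exact Nat.eq_of_mul_eq_mul_left (by omega) hab
  have hS : ((fun m : ℕ => n * m + 1) '' (q ⁻¹' {y})).Infinite := hT.image hinj.injOn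
  have hL : ∀ l : ℕ, l ∈ (fun m : ℕ => n * m + 1) '' (q ⁻¹' {y}) →
      ∃ L : Lift A 1 l, L.φ (piH p n h hh hlt.le f) = piH p n h hh hlt.le (φ m0 f) := by
    rintro l ⟨m, hm, rfl⟩
    obtain ⟨L, hL⟩ := lift_of hn1 hH h hh hlt A hA 1 (n * m + 1) (φ m) (ψ m) (hred m) (hiso m) (hψ m)
    refine ⟨L, ?_⟩
    rw [hL, ← sub_eq_zero, ← map_sub, ← mem_heightIdeal_iff]
    have h2 : q m0 = q m := by
      rw [Set.mem_preimage, Set.mem_singleton_iff] at hm hm0
      rw [hm, hm0]
    have h3 : (⟨φ m0, hmem m0⟩ : K)⁻¹ * ⟨φ m, hmem m⟩ ∈ V := QuotientGroup.eq.1 h2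
    have h4 : ((φ m0 : RingAut (P217.E0 p n))⁻¹ * (φ m : RingAut (P217.E0 p n))) ∈ U :=
      Subgroup.mem_subgroupOf.1 h3
    have h5 := hinv _ h4
    have h6 : φ m f - φ m0 f = φ m0 ((((φ m0 : RingAut (P217.E0 p n))⁻¹ *
        (φ m : RingAut (P217.E0 p n))) : RingAut (P217.E0 p n)) f - f) := by
      rw [map_sub]
      congr 1
      exact ((φ m0).apply_symm_apply _).symm
    rw [h6]
    have h7 := isInvariant_heightIdeal_of_adapted hH h hlt.le (φ m0) (ψ m0) (hiso m0)
    rw [← h7]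
    exact Ideal.mem_map_of_mem _ h5
  choose L hLv using hL
  refine base hΓ₀ A h1 (piH p n h hh hlt.le f) ε hε k hk hf _ hS ?_ L ?_
  · rintro l ⟨m, hm, rfl⟩
    refine ⟨Nat.le_add_left 1 _, fun hd => ?_⟩
    have h8 : n ∣ 1 := (Nat.dvd_add_right (dvd_mul_right n m)).1 hd
    have h9 := Nat.le_of_dvd one_pos h8
    omega
  · intro l hl l' hl'
    rw [hLv, hLv]

/-- From the stratum of height `h` to the stratum of height `h + 1`. -/
theorem step_next (hn1 : 1 ≤ n) (hΓ : P217.IsHonda p n Γ)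
    (hF : P217.IsUniversalDeformation p n Γ F) (hH : P217.HeightAdapted p n F)
    (U : Subgroup (RingAut (P217.E0 p n))) (hU : U ≤ LT.actionGroup p n Γ F)
    (h : ℕ) (hh : 1 ≤ h) (hlt' : h + 1 < n) (hlt : h < n) (f : P217.E0 p n)
    (hinv : ∀ φ ∈ U, φ f - f ∈ P217.heightIdeal p n h)
    (ε : MvPowerSeries (Fin (n - h)) (GaloisField p n)) (hε : IsUnit ε) (k : ℕ) (hk : 1 ≤ k)
    (hf : piH p n h hh hlt.le f = ε * X (⟨0, Nat.sub_pos_of_lt hlt⟩ : Fin (n - h)) ^ k) :
    ∃ f' : P217.E0 p n, (∀ φ ∈ U, φ f' - f' ∈ P217.heightIdeal p n (h + 1)) ∧ red p n f' = 0 ∧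
      f' ∉ P217.heightIdeal p n (h + 1) := by
  classical
  have hp2 : 2 ≤ p := (Fact.out : p.Prime).two_le
  have hD : IsDomain (MvPowerSeries (Fin (n - h)) (GaloisField p n)) := NoZeroDivisors.to_isDomain _
  have hD' : IsDomain (MvPowerSeries (Fin (n - (h + 1))) (GaloisField p n)) :=
    NoZeroDivisors.to_isDomain _
  obtain ⟨e, he, hW⟩ := piH_lead hn1 hΓ hF hH h hh hlt
  obtain ⟨e', he', hW'⟩ := piH_lead hn1 hΓ hF hH (h + 1) (by omega) hlt'
  set π := piH p n h hh hlt.le with hπ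
  set π' := piH p n (h + 1) (by omega) hlt'.le with hπ'
  set W := lead F h with hWdef
  set W' := lead F (h + 1) with hW'def
  have hXp := prime_X (p := p) hn1 h hh hlt
  have hXp' := prime_X (p := p) hn1 (h + 1) (by omega) hlt'
  -- a unit `E` with `f = E W^k`
  obtain ⟨ei, hei⟩ := he.exists_left_inv
  obtain ⟨E, hE⟩ := piH_surjective (p := p) (n := n) h hh hlt.le (ε * ei ^ k)
  have hfE : π f = π E * π W ^ k := by
    have h3 : ei ^ k * e ^ k = 1 := by rw [← mul_pow, hei, one_pow]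
    rw [hf, hπ, hE, ← hπ, hW, mul_pow]
    linear_combination (-(ε * X (⟨0, Nat.sub_pos_of_lt hlt⟩ : Fin (n - h)) ^ k)) * h3
  have hEu : red p n E ≠ 0 := by
    rw [← constantCoeff_piH h hh hlt.le, hE]
    have h3 : IsUnit (ε * ei ^ k) := hε.mul ((IsUnit.of_mul_eq_one _ hei).pow k)
    exact ((MvPowerSeries.isUnit_iff_constantCoeff).1 h3).ne_zero
  have hW0 : π W ≠ 0 := by
    rw [hW]
    exact mul_ne_zero he.ne_zero hXp.ne_zero
  obtain ⟨q0, hq0⟩ : ∃ q0, p ^ h = q0 + 1 :=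
    Nat.exists_eq_add_one_of_ne_zero (pow_ne_zero _ (by omega))
  have hq0pos : 1 ≤ q0 := by
    have : 1 < p ^ h := Nat.one_lt_pow (by omega) (by omega)
    omega
  obtain ⟨b, hb⟩ : ∃ b, p ^ (h + 1) = b + 1 :=
    Nat.exists_eq_add_one_of_ne_zero (pow_ne_zero _ (by omega))
  refine ⟨W' ^ (q0 * k) * E ^ b, ?_, ?_, ?_⟩
  · intro φ hφ
    obtain ⟨g, hg⟩ := actIso_of_mem hF (hU hφ)
    have t1 := trans_law hF hH h hh hlt.le φ g hg
    have t2 := trans_law hF hH (h + 1) (by omega) hlt'.le φ g hg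
    have htu : IsUnit (PowerSeries.coeff 1 g) := hg.2
    generalize PowerSeries.coeff 1 g = t at t1 t2 htu
    have htu1 : IsUnit (π t) := htu.map π
    have htu2 : IsUnit (π' t) := htu.map π'
    have hi := hinv φ hφ
    rw [mem_heightIdeal_iff h hh hlt.le, map_sub, sub_eq_zero] at hi
    -- invariance of `ideal I_h`: `π (φ f) = π (φ E) π (φ W)^k`
    have hinvI := isInvariant_heightIdeal_of_adapted hH h hlt.le φ g hg
    have hφf : π (φ f) = π (φ E) * π (φ W) ^ k := by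
      have h3 : f - E * W ^ k ∈ P217.heightIdeal p n h := by
        rw [mem_heightIdeal_iff h hh hlt.le, map_sub, map_mul, map_pow, ← hπ, hfE, sub_self]
      have h4 : φ (f - E * W ^ k) ∈ P217.heightIdeal p n h := by
        rw [← hinvI]
        exact Ideal.mem_map_of_mem _ h3
      rw [mem_heightIdeal_iff h hh hlt.le, map_sub, map_sub, map_mul, map_mul, map_pow, map_pow,
        sub_eq_zero] at h4
      exact h4
    have key : π (φ E) * π t ^ k = π E * π t ^ ((q0 + 1) * k) := by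
      have h3 : π W ^ k * (π (φ E) * π t ^ k) = π W ^ k * (π E * π t ^ ((q0 + 1) * k)) := by
        have h4 : π (φ E) * π (φ W) ^ k = π E * π W ^ k := by
          rw [← hφf, hi, hfE]
        have h5 : (π t * π W) ^ k = (π (φ W) * π t ^ (q0 + 1)) ^ k := by
          have t1' : π t * π W = π (φ W) * π t ^ (q0 + 1) := by
            rw [← hq0]
            exact t1
          rw [t1']
        rw [mul_pow, mul_pow, ← pow_mul] at h5
        calc π W ^ k * (π (φ E) * π t ^ k) = π (φ E) * (π t ^ k * π W ^ k) := by ring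
          _ = π (φ E) * (π (φ W) ^ k * π t ^ ((q0 + 1) * k)) := by rw [h5]
          _ = (π (φ E) * π (φ W) ^ k) * π t ^ ((q0 + 1) * k) := by ring
          _ = π W ^ k * (π E * π t ^ ((q0 + 1) * k)) := by rw [h4]; ring
      exact mul_left_cancel₀ (pow_ne_zero _ hW0) h3
    have key' : π' (φ E) * π' t ^ k = π' E * π' t ^ ((q0 + 1) * k) := by
      have h3 : φ E * t ^ k - E * t ^ ((q0 + 1) * k) ∈ P217.heightIdeal p n (h + 1) := by
        refine H260.heightIdeal_mono (Nat.le_succ h) ?_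
        rw [mem_heightIdeal_iff h hh hlt.le, map_sub, map_mul, map_pow, map_mul, map_pow, ← hπ, key,
          sub_self]
      rw [mem_heightIdeal_iff (h + 1) (by omega) hlt'.le, map_sub, map_mul, map_pow, map_mul,
        map_pow, sub_eq_zero] at h3
      exact h3
    rw [mem_heightIdeal_iff (h + 1) (by omega) hlt'.le, ← hπ']
    rw [map_sub, map_mul, map_pow, map_pow, map_mul, map_mul, map_pow, map_pow, map_pow, map_pow,
      sub_eq_zero]
    have t2' : π' t * π' W' = π' (φ W') * π' t ^ (b + 1) := by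
      rw [← hb]
      exact t2
    have h6 : IsUnit (π' t ^ (k * b + (b + 1) * (q0 * k))) := htu2.pow _
    refine h6.mul_right_cancel ?_
    calc π' (φ W') ^ (q0 * k) * π' (φ E) ^ b * π' t ^ (k * b + (b + 1) * (q0 * k))
        = (π' (φ W') * π' t ^ (b + 1)) ^ (q0 * k) * (π' (φ E) * π' t ^ k) ^ b := by
          rw [mul_pow, mul_pow, ← pow_mul, ← pow_mul, pow_add]; ring
      _ = (π' t * π' W') ^ (q0 * k) * (π' E * π' t ^ ((q0 + 1) * k)) ^ b := by
          rw [key', ← t2']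
      _ = π' W' ^ (q0 * k) * π' E ^ b * π' t ^ (q0 * k + (q0 + 1) * k * b) := by
          rw [mul_pow, mul_pow, ← pow_mul, pow_add]; ring
      _ = π' W' ^ (q0 * k) * π' E ^ b * π' t ^ (k * b + (b + 1) * (q0 * k)) := by
          congr 2
          ring
  · rw [map_mul, map_pow]
    have h3 : red p n W' = 0 := by
      rw [← constantCoeff_piH (h + 1) (by omega) hlt'.le, ← hπ', hW', map_mul, constantCoeff_X,
        mul_zero]
    rw [h3, zero_pow (Nat.mul_ne_zero (by omega) (by omega)), zero_mul]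
  · rw [mem_heightIdeal_iff (h + 1) (by omega) hlt'.le, ← hπ', map_mul, map_pow, map_pow]
    refine mul_ne_zero (pow_ne_zero _ ?_) (pow_ne_zero _ ?_)
    · rw [hW']
      exact mul_ne_zero he'.ne_zero hXp'.ne_zero
    · intro h0
      apply hEu
      rw [← constantCoeff_piH (h + 1) (by omega) hlt'.le, ← hπ', h0, map_zero]

end Vale.Agent.P261.R2.H932
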