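import Vale.Agent.P261.R2.H932.Const2

/-!
# P261: invariant functions on the strata are constant (conclusion)
-/

namespace Vale.Agent.P261.R2.H932

open MvPowerSeries Vale.Agent.P217

variable {p n : ℕ} [Fact p.Prime] {Γ : FormalGroup (ZMod p)} {F : FormalGroup (P217.E0 p n)}

/-- An ideal which is invariant, contains `I_h` strictly, contains a power of `u_h` modulo `I_h`. -/
theorem exists_pow_mem (hn1 : 1 ≤ n) (hΓ : LT.IsHonda p n Γ) (hF : LT.IsUniversal p n Γ F)
    (hH : LT.HeightAdapted p n F) (U : Subgroup (RingAut (P217.E0 p n)))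
    (hU : U ≤ LT.actionGroup p n Γ F) (hfin : U.relIndex (LT.actionGroup p n Γ F) ≠ 0)
    (h : ℕ) (hh : 1 ≤ h) (hlt : h < n) (J : Ideal (P217.E0 p n))
    (hJ : ∀ φ ∈ U, J.map (φ : P217.E0 p n →+* P217.E0 p n) = J)
    (hle : P217.heightIdeal p n h ≤ J) (f : P217.E0 p n) (hfJ : f ∈ J)
    (hf : f ∉ P217.heightIdeal p n h) :
    ∃ N, (X (embH n h hh hlt.le ⟨0, Nat.sub_pos_of_lt hlt⟩) : P217.E0 p n) ^ N ∈ J := by
  have hinv : LT.InvariantUnder U J.radical := by
    intro φ hφ
    have h1 : Function.Surjective (φ : P217.E0 p n →+* P217.E0 p n) := φ.surjective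
    have h2 : RingHom.ker (φ : P217.E0 p n →+* P217.E0 p n) ≤ J := by
      intro x hx
      have h3 : φ x = 0 := hx
      have h4 : x = 0 := by simpa using h3
      rw [h4]
      exact J.zero_mem
    rw [Ideal.map_radical_of_surjective h1 h2]
    exact congrArg Ideal.radical (hJ φ hφ)
  have hrad : J.radical.IsRadical := J.radical_isRadical
  have h5 := ((H260.main_subgroup.{0} hn1 hΓ hF hH U hU hfin).1 J.radical).2.1 ⟨hrad, hinv⟩
  change _ ∈ J.radical
  rcases h5 with h5 | ⟨j, hj, h5⟩
  · rw [h5]
    exact Submodule.mem_top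
  · have h6 : h + 1 ≤ j := by
      by_contra hcon
      apply hf
      refine H260.heightIdeal_mono (p := p) (n := n) (by omega : j ≤ h) ?_
      have h7 : f ∈ J.radical := Ideal.le_radical hfJ
      rw [h5] at h7
      exact h7
    rw [h5]
    refine H260.heightIdeal_mono (p := p) (n := n) h6 ?_
    rw [heightIdeal_of_pos (by omega)]
    refine Ideal.subset_span (Or.inr ⟨_, ?_, rfl⟩)
    rw [val_embH]
    change 0 + (h - 1) + 1 < h + 1
    omega

/-- **Invariant functions on the strata are constant**: if `f` is invariant modulo `I_h` under a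
subgroup of finite index and vanishes at the closed point, then `f ∈ I_h`. -/
theorem inv_const (hn1 : 1 ≤ n) (hΓ : LT.IsHonda p n Γ) (hF : LT.IsUniversal p n Γ F)
    (hH : LT.HeightAdapted p n F) (U : Subgroup (RingAut (P217.E0 p n)))
    (hU : U ≤ LT.actionGroup p n Γ F) (hfin : U.relIndex (LT.actionGroup p n Γ F) ≠ 0) :
    ∀ d h : ℕ, 1 ≤ h → h + d = n → ∀ f : P217.E0 p n,
      (∀ φ ∈ U, φ f - f ∈ P217.heightIdeal p n h) → red p n f = 0 →
      f ∈ P217.heightIdeal p n h := by
  classical
  have hF' := LTC.isUniversal_iff.1 hF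
  intro d
  induction d with
  | zero =>
    intro h hh hd f _ hf
    have h1 : h = n := by omega
    subst h1
    exact (mem_heightIdeal_top hh f).2 hf
  | succ d ih =>
    intro h hh hd f hinv hf
    by_contra hfI
    have hlt : h < n := by omega
    have hDom : IsDomain (MvPowerSeries (Fin (n - h)) (GaloisField p n)) :=
      NoZeroDivisors.to_isDomain _
    have hJ : ∀ φ ∈ U, (P217.heightIdeal p n h ⊔ Ideal.span {f}).map
        (φ : P217.E0 p n →+* P217.E0 p n) = P217.heightIdeal p n h ⊔ Ideal.span {f} := by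
      intro φ hφ
      obtain ⟨g, hg⟩ := actIso_of_mem hF' (hU hφ)
      rw [Ideal.map_sup, isInvariant_heightIdeal_of_adapted hH h hlt.le φ g hg, Ideal.map_span,
        Set.image_singleton]
      have h1 := hinv φ hφ
      apply le_antisymm
      · refine sup_le le_sup_left ?_
        rw [Ideal.span_singleton_le_iff_mem]
        have h2 : (φ : P217.E0 p n →+* P217.E0 p n) f = (φ f - f) + f := by
          rw [sub_add_cancel]; rfl
        rw [h2]
        exact Ideal.add_mem _ (Ideal.mem_sup_left h1)
          (Ideal.mem_sup_right (Ideal.mem_span_singleton_self f))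
      · refine sup_le le_sup_left ?_
        rw [Ideal.span_singleton_le_iff_mem]
        have h2 : f = -(φ f - f) + (φ : P217.E0 p n →+* P217.E0 p n) f := by
          have : (φ : P217.E0 p n →+* P217.E0 p n) f = φ f := rfl
          rw [this]; ring
        rw [h2]
        exact Ideal.add_mem _ (Ideal.mem_sup_left (Ideal.neg_mem_iff _ |>.2 h1))
          (Ideal.mem_sup_right (by rw [← h2]; exact Ideal.mem_span_singleton_self _))
    obtain ⟨N, hN⟩ := exists_pow_mem hn1 hΓ hF hH U hU hfin h hh hlt _ hJ le_sup_left f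
      (Ideal.mem_sup_right (Ideal.mem_span_singleton_self f)) hfI
    obtain ⟨i, hi, z, hz, hiz⟩ := Submodule.mem_sup.1 hN
    obtain ⟨a, rfl⟩ := Ideal.mem_span_singleton'.1 hz
    have h3 : piH p n h hh hlt.le f ∣
        (X (⟨0, Nat.sub_pos_of_lt hlt⟩ : Fin (n - h)) :
          MvPowerSeries (Fin (n - h)) (GaloisField p n)) ^ N := by
      refine ⟨piH p n h hh hlt.le a, ?_⟩
      rw [← piH_X_emb h hh hlt.le, ← map_pow, ← hiz, map_add, map_mul,
        (mem_heightIdeal_iff h hh hlt.le i).1 hi, zero_add, mul_comm]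
    have hXp := prime_X (p := p) hn1 h hh hlt
    obtain ⟨k, -, hk⟩ := (dvd_prime_pow hXp N).1 h3
    obtain ⟨v, hv⟩ := hk.symm
    have hfe : piH p n h hh hlt.le f = (v : MvPowerSeries (Fin (n - h)) (GaloisField p n)) *
        X (⟨0, Nat.sub_pos_of_lt hlt⟩ : Fin (n - h)) ^ k := by
      rw [← hv, mul_comm]
    have hk1 : 1 ≤ k := by
      rcases Nat.eq_zero_or_pos k with h0 | h0
      · exfalso
        have h4 := constantCoeff_piH h hh hlt.le f
        rw [hf, hfe, h0, pow_zero, mul_one] at h4
        have h5 : IsUnit (constantCoeff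
            (v : MvPowerSeries (Fin (n - h)) (GaloisField p n))) :=
          (MvPowerSeries.isUnit_iff_constantCoeff).1 v.isUnit
        rw [h4] at h5
        exact not_isUnit_zero h5
      · exact h0
    rcases Nat.eq_zero_or_pos d with hd0 | hd0
    · exact step_base hn1 hΓ hF' hH U hfin h hh (by omega) hlt f hinv _ v.isUnit k hk1 hfe
    · obtain ⟨f', h6, h7, h8⟩ := step_next hn1 hΓ hF' hH U hU h hh (by omega) hlt f hinv _
        v.isUnit k hk1 hfe
      exact h8 (ih (h + 1) (by omega) (by omega) f' h6 h7)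

end Vale.Agent.P261.R2.H932
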