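import Vale.Agent.P261.R2.H932.Final

/-!
# P261: further definitions used in the statement of the final result
-/

namespace Vale.Agent.P261

open MvPowerSeries Vale.Agent.P217.LT Vale.Agent.P261.R2.H700

variable {p n : ℕ} [Fact p.Prime] {F : FormalGroup (E0 p n)}

/-- `G_n = {(φ, g)}` is the extended Morava stabilizer group: reduction to `𝔽_{p^n}` is a
bijection from `G_n` to the set of all pairs `(σ, γ)`, `σ` an automorphism of `𝔽_{p^n}` and `γ` an
automorphism of `Γ` over `𝔽_{p^n}`. -/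
def Gn.IsStabilizer (Γ : FormalGroup (ZMod p)) (F : FormalGroup (E0 p n)) : Prop :=
  (∀ x : Gn p n F, ∃! s : (GaloisField p n ≃+* GaloisField p n) ×
      PowerSeries (GaloisField p n), Gn.Reduces x s.1 s.2) ∧
    (∀ (x : Gn p n F) σ γ, Gn.Reduces x σ γ → IsIso (base p n Γ) (base p n Γ) γ) ∧
    ∀ σ γ, IsIso (base p n Γ) (base p n Γ) γ → ∃! x : Gn p n F, Gn.Reduces x σ γ

/-- The action of `H` on `π_{2k} E_n`. -/
noncomputable def Gn.twist (H : Subgroup (Gn p n F)) (k : ℤ) (g : H) (r : E0 p n) : E0 p n :=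
  Gn.tw k (g : Gn p n F) r

/-- All `H`-invariant fractions `a / b` of `E₀ / I_h`, `1 ≤ h ≤ n`, are constants `c` with
`c ^ (p ^ n) = c`. -/
def FractionsConstant (H : Subgroup (Gn p n F)) : Prop :=
  ∀ h, 1 ≤ h → h ≤ n → ∀ a b : E0 p n, b ∉ heightIdeal p n h →
    (∀ g : H, Gn.pi (g : Gn p n F) a * b - a * Gn.pi (g : Gn p n F) b ∈ heightIdeal p n h) →
    ∃ c : E0 p n, c ^ p ^ n = c ∧ a - c * b ∈ heightIdeal p n h

/-- `M` is `p`-torsion-free. -/
def TorsionFree (p n : ℕ) [Fact p.Prime] (M : Type) [AddCommGroup M] [Module (E0 p n) M] : Prop :=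
  ∀ m : M, (p : E0 p n) • m = 0 → m = 0

/-- `M` is killed by a power of `p`. -/
def KilledByPower (p n : ℕ) [Fact p.Prime] (M : Type) [AddCommGroup M] [Module (E0 p n) M] :
    Prop :=
  ∃ N : ℕ, ∀ m : M, (p : E0 p n) ^ N • m = 0

/-- `H⁰ = {m | ρ g m = m for all g}` is finite. -/
def H0Finite {G M : Type} (ρ : G → M → M) : Prop := {m : M | ∀ g, ρ g m = m}.Finite

/-- `H⁰ = 0`. -/
def H0Zero {G M : Type} [AddCommGroup M] (ρ : G → M → M) : Prop :=
  ∀ m : M, (∀ g, ρ g m = m) → m = 0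

/-- `H⁰` is a finitely generated `ℤ_p`-module (`ℤ_p` acts through `zp : ℤ_p → E₀`). -/
def H0FG (H : Subgroup (Gn p n F)) {M : Type} [AddCommGroup M] [Module (E0 p n) M]
    (ρ : H → M → M) : Prop :=
  H0FinitelyGenerated (fun a m => zp p n a • m) ρ

/-- `H¹` (crossed homomorphisms modulo principal ones) is torsion-free. -/
def H1TorsionFree (H : Subgroup (Gn p n F)) [TopologicalSpace H] {M : Type} [AddCommGroup M]
    [Module (E0 p n) M] (ρ : H → M → M) : Prop :=
  ∀ (N : ℕ) (c : H → M), IsCocycle H ρ c → IsCoboundary ρ (p ^ N • c) → IsCoboundary ρ c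

end Vale.Agent.P261
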