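import Vale.Agent.P261.R2.H932.Frac
import Vale.Agent.P261.R2.H932.Fin
import Vale.Agent.P217.H934.Unb

/-!
# P261: invariants of `p`-power torsion Morava modules are finite
-/

namespace Vale.Agent.P261.R2.H932

open MvPowerSeries Vale.Agent.P217 Vale.Agent.P217.H934

variable {p n : ℕ} [Fact p.Prime] {Γ : FormalGroup (ZMod p)} {F : FormalGroup (P217.E0 p n)}

/-- The automorphisms of `E₀` which act trivially on the residue field. -/
def strict (p n : ℕ) [Fact p.Prime] : Subgroup (RingAut (P217.E0 p n)) where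
  carrier := {φ | ∀ x, red p n (φ x) = red p n x}
  mul_mem' := by
    intro φ ψ h1 h2 x
    have h3 : (φ * ψ) x = φ (ψ x) := rfl
    rw [h3, h1, h2]
  one_mem' := fun x => rfl
  inv_mem' := by
    intro φ h x
    have h1 := h (φ⁻¹ x)
    have h2 : φ (φ⁻¹ x) = x := φ.apply_symm_apply x
    rw [h2] at h1
    exact h1.symm

theorem mem_strict {φ : RingAut (P217.E0 p n)} :
    φ ∈ strict p n ↔ (red p n).comp (φ : P217.E0 p n →+* P217.E0 p n) = red p n :=
  ⟨fun h => RingHom.ext h, fun h x => RingHom.congr_fun h x⟩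

theorem strict_index (hF : LT.IsUniversal p n Γ F) :
    (strict p n).relIndex (LT.actionGroup p n Γ F) ≠ 0 := by
  have h1 := H260.congruence_index (LTC.isUniversal_iff.1 hF) 0
  have h2 : LT.congruenceGroup p n Γ F 0 ≤ strict p n := by
    refine (Subgroup.closure_le _).2 ?_
    rintro φ ⟨γ, -, -, g, h3, -⟩
    exact mem_strict.2 h3
  exact ne_zero_of_dvd_ne_zero h1 (Subgroup.relIndex_dvd_of_le_left _ h2)

section Rel

variable (hn1 : 1 ≤ n) (hΓ : LT.IsHonda p n Γ) (hF : LT.IsUniversal p n Γ F)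
    (hH : LT.HeightAdapted p n F) (U : Subgroup (RingAut (P217.E0 p n)))
    (hU : U ≤ LT.actionGroup p n Γ F) (hfin : U.relIndex (LT.actionGroup p n Γ F) ≠ 0)
    (hstr : ∀ φ ∈ U, (red p n).comp (φ : P217.E0 p n →+* P217.E0 p n) = red p n)

include hn1 hΓ hF hH hU hfin hstr

theorem rel_finite {M : Type} [AddCommGroup M] [Module (P217.E0 p n) M]
    [Module.Finite (P217.E0 p n) M] {ι : Type*} (φ : ι → RingAut (P217.E0 p n))
    (hφ : ∀ ψ ∈ U, ∃ i, φ i = ψ) (T : ι → M →+ M)
    (hT : ∀ i (r : P217.E0 p n) (m : M), T i (r • m) = φ i r • T i m)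
    (N N' : Submodule (P217.E0 p n) M) (hN : ∀ i, ∀ m ∈ N, T i m ∈ N)
    (h : ℕ) (hh : 1 ≤ h) (hle : h ≤ n)
    (htf : ∀ m ∈ N', ∀ r : P217.E0 p n, r • m ∈ N ↔ r ∈ P217.heightIdeal p n h ∨ m ∈ N) :
    Set.Finite {x : M ⧸ N | ∃ m ∈ N', N.mkQ m = x ∧ ∀ i, T i m - m ∈ N} := by
  classical
  have hI : (P217.heightIdeal p n h).IsPrime := isPrime_heightIdeal hn1 h hle
  have hnoe : IsNoetherian (P217.E0 p n) (M ⧸ N) :=
    isNoetherian_of_isNoetherianRing_of_finite (P217.E0 p n) _
  let P : Submodule (P217.E0 p n) (M ⧸ N) := N'.map N.mkQ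
  have hPf : Module.Finite (P217.E0 p n) P := Module.IsNoetherian.finite _ _
  let V : Set P := {x | ∃ m ∈ N', N.mkQ m = x ∧ ∀ i, T i m - m ∈ N}
  have hmem : ∀ m : M, N.mkQ m = 0 ↔ m ∈ N := fun m => by
    rw [Submodule.mkQ_apply, Submodule.Quotient.mk_eq_zero]
  have hV : V.Finite := by
    refine finite_invariants (P217.heightIdeal p n h) (P := P) ?_ V
      (fun i x => φ i x) ?_ (Set.range (tch p n)) (Set.finite_range _) ?_
    · rintro r ⟨x, m, hm, rfl⟩
      have h1 := htf m hm r
      rw [← hmem, ← hmem, map_smul] at h1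
      rw [← Subtype.coe_inj, ← Subtype.coe_inj]
      exact h1
    · intro i α _ x hx m hm a c hac
      choose x' hx' using hx
      obtain ⟨m', hm'N, hm', hTm'⟩ := hm
      have h1 : a • m' - ∑ j, c j • x' j ∈ N := by
        rw [← hmem, map_sub, map_smul, hm', map_sum, sub_eq_zero]
        have h2 := congrArg (Subtype.val : P → M ⧸ N) hac
        rw [Submodule.coe_smul, Submodule.coe_sum] at h2
        rw [h2]
        refine Finset.sum_congr rfl fun j _ => ?_
        rw [map_smul, (hx' j).2.1, Submodule.coe_smul]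
      have h2 := hN i _ h1
      rw [map_sub, hT, map_sum] at h2
      have h3 : φ i a • m' - ∑ j, φ i (c j) • x' j ∈ N := by
        have h4 : φ i a • m' - ∑ j, φ i (c j) • x' j =
            (φ i a • T i m' - ∑ j, T i (c j • x' j)) - φ i a • (T i m' - m') +
              ∑ j, φ i (c j) • (T i (x' j) - x' j) := by
          simp only [hT, smul_sub, Finset.sum_sub_distrib]
          abel
        rw [h4]
        exact N.add_mem (N.sub_mem h2 (N.smul_mem _ (hTm' i)))
          (N.sum_mem fun j _ => N.smul_mem _ ((hx' j).2.2 i))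
      rw [← hmem, map_sub, map_smul, hm', map_sum, sub_eq_zero] at h3
      apply Subtype.ext
      rw [Submodule.coe_smul, Submodule.coe_sum, h3]
      refine Finset.sum_congr rfl fun j _ => ?_
      rw [map_smul, (hx' j).2.1, Submodule.coe_smul]
    · intro a b hb hab
      obtain ⟨c, hc⟩ := frac_const hn1 hΓ hF hH U hU hfin hstr h hh hle a b hb (fun ψ hψ => by
        obtain ⟨i, rfl⟩ := hφ ψ hψ
        exact hab i)
      exact ⟨_, ⟨c, rfl⟩, hc⟩
  refine (hV.image Subtype.val).subset ?_
  rintro x ⟨m, hm, rfl, hTm⟩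
  exact ⟨⟨N.mkQ m, Submodule.mem_map_of_mem hm⟩, ⟨m, hm, rfl, hTm⟩, rfl⟩

end Rel

section Dev

variable {𝔾 : Type*} [Group 𝔾] [TopologicalSpace 𝔾] {π : 𝔾 →* RingAut (P217.E0 p n)}
variable {J : Ideal (P217.E0 p n)}

/-- The invariants of a finitely generated equivariant module killed by a power of `p` are
finite. -/
theorem finite_inv (hn1 : 1 ≤ n) (hΓ : LT.IsHonda p n Γ) (hF : LT.IsUniversal p n Γ F)
    (hH : LT.HeightAdapted p n F) (hr : π.range ≤ LT.actionGroup p n Γ F)
    (hfin : π.range.relIndex (LT.actionGroup p n Γ F) ≠ 0)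
    (M : EqModule J π) (k : ℕ) (hk : ∀ m : M.carrier, (p : P217.E0 p n) ^ k • m = 0) :
    {m : M.carrier | ∀ g, M.ρ g m = m}.Finite := by
  classical
  set U : Subgroup (RingAut (P217.E0 p n)) := π.range ⊓ strict p n with hUdef
  have hU : U ≤ LT.actionGroup p n Γ F := inf_le_left.trans hr
  have hUfin : U.relIndex (LT.actionGroup p n Γ F) ≠ 0 :=
    Subgroup.relIndex_inf_ne_zero hfin (strict_index hF)
  have hstr : ∀ φ ∈ U, (red p n).comp (φ : P217.E0 p n →+* P217.E0 p n) = red p n :=
    fun φ hφ => mem_strict.1 hφ.2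
  obtain ⟨-, K, N, hN0, hNK, hN⟩ := (H260.main_subgroup.{0} hn1 hΓ hF hH π.range hr hfin).2
    M.carrier (by
      rintro φ ⟨g, rfl⟩
      exact ⟨M.ρ g, M.semilinear g⟩)
  let ι := {g : 𝔾 // π g ∈ strict p n}
  have hst : ∀ i, i ≤ K → ∀ g : 𝔾, ∀ m ∈ N i, M.ρ g m ∈ N i := by
    intro i hi g m hm
    rcases hi.eq_or_lt with rfl | hi
    · rw [hNK]; exact Submodule.mem_top
    · exact ((hN i hi).2.1 (π g) (hr ⟨g, rfl⟩) (M.ρ g) (M.semilinear g) m).1 hm
  have key : ∀ i, i ≤ K → {m : M.carrier | m ∈ N i ∧ ∀ g, M.ρ g m = m}.Finite := by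
    intro i
    induction i with
    | zero =>
      intro _
      refine (Set.finite_singleton (0 : M.carrier)).subset ?_
      rintro m ⟨hm, -⟩
      rw [hN0] at hm
      exact hm
    | succ i ih =>
      intro hi
      obtain ⟨hlt, -, h, hle, htf⟩ := hN i hi
      have hh : 1 ≤ h := by
        by_contra h0
        have h0' : h = 0 := by omega
        subst h0'
        obtain ⟨m, hm, hm'⟩ := SetLike.exists_of_lt hlt
        have h1 := (htf m hm ((p : P217.E0 p n) ^ k)).1 (by rw [hk]; exact (N i).zero_mem)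
        rcases h1 with h1 | h1
        · have h2 : (p : P217.E0 p n) ^ k = 0 := by
            have h3 : LT.heightIdeal p n 0 = ⊥ := by rw [LT.heightIdeal, if_pos rfl]
            rw [h3] at h1
            exact h1
          have h4 : (p : P217.E0 p n) = 0 := by
            have hD : IsDomain (P217.E0 p n) := NoZeroDivisors.to_isDomain _
            have hk0 : k ≠ 0 := by
              rintro rfl
              rw [pow_zero] at h2
              exact one_ne_zero h2
            exact (pow_eq_zero_iff hk0).1 h2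
          have h5 := congrArg (MvPowerSeries.constantCoeff) h4
          rw [map_natCast, map_zero] at h5
          exact (WittVector.p_nonzero p (GaloisField p n)) h5
        · exact hm' h1
      have hrel := rel_finite hn1 hΓ hF hH U hU hUfin hstr (M := M.carrier)
        (fun g : ι => π g.1) (by
          rintro ψ ⟨⟨g, rfl⟩, h2⟩
          exact ⟨⟨g, h2⟩, rfl⟩)
        (fun g => (M.ρ g.1 : M.carrier →+ M.carrier)) (fun g r m => M.semilinear g.1 r m)
        (N i) (N (i + 1)) (fun g m hm => hst i (by omega) g.1 m hm) h hh hle htf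
      refine Set.Finite.of_finite_fibers (N i).mkQ ?_ ?_
      · refine hrel.subset ?_
        rintro x ⟨m, ⟨hm, hinv⟩, rfl⟩
        refine ⟨m, hm, rfl, fun g => ?_⟩
        have h1 : (M.ρ g.1 : M.carrier →+ M.carrier) m = m := hinv g.1
        rw [h1, sub_self]
        exact (N i).zero_mem
      · rintro x ⟨m, ⟨hm, hinv⟩, rfl⟩
        refine ((ih (by omega)).image fun y => y + m).subset ?_
        rintro m' ⟨⟨hm', hinv'⟩, hmm'⟩
        refine ⟨m' - m, ⟨?_, fun g => ?_⟩, sub_add_cancel _ _⟩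
        · have h1 : (N i).mkQ m' = (N i).mkQ m := hmm'
          rw [← sub_eq_zero, ← map_sub, Submodule.mkQ_apply, Submodule.Quotient.mk_eq_zero] at h1
          exact h1
        · rw [map_sub, hinv', hinv]
  refine (key K le_rfl).subset ?_
  intro m hm
  refine ⟨?_, hm⟩
  rw [hNK]
  exact Submodule.mem_top

end Dev

end Vale.Agent.P261.R2.H932
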