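import Vale.Agent.P261.R2.H932.Asm3
import Vale.Agent.P261.R2.H932.Twist

/-!
# P261: the final pieces
-/

namespace Vale.Agent.P261.R2.H932

open MvPowerSeries Vale.Agent.P217 Vale.Agent.P261.R2.H700

variable {p n : ℕ} [Fact p.Prime] {Γ : FormalGroup (ZMod p)} {F : FormalGroup (LT.E0 p n)}

/-- `π_{2k} E_n` is a Morava module. -/
theorem tw_module (H : Subgroup (Gn p n F)) (k : ℤ) :
    Vale.Agent.P261.IsMoravaModule H (LT.E0 p n) (fun g => Gn.tw k (g : Gn p n F)) := by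
  refine ⟨?_, ?_, ?_, ?_, ?_⟩
  · exact Module.Finite.self _
  · intro m
    exact Gn.tw_one k m
  · intro g h m
    exact Gn.tw_mul k (g : Gn p n F) (h : Gn p n F) m
  · intro g m m'
    exact Gn.tw_add k (g : Gn p n F) m m'
  · intro g r m
    rw [smul_eq_mul, smul_eq_mul]
    exact Gn.tw_smul k (g : Gn p n F) r m

section

variable (hn1 : 1 ≤ n) (hΓ : LT.IsHonda p n Γ) (hF : LT.IsUniversal p n Γ F)
    (hA : LT.HeightAdapted p n F) (H : Subgroup (Gn p n F)) (hH : H.index ≠ 0)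

include hn1 hΓ hF hA hH

theorem h1TorsionFinite [TopologicalSpace H]
    (M : Type) [AddCommGroup M] [Module (LT.E0 p n) M] (ρ : H → M → M)
    (h : Vale.Agent.P261.IsMoravaModule H M ρ)
    (htf : ∀ m : M, (p : LT.E0 p n) • m = 0 → m = 0) : H1TorsionFinite H ρ := by
  obtain ⟨S, hS, hSZ, hall⟩ := h1_tors hn1 hΓ hF hA H hH M ρ h htf {c | IsCocycle H ρ c}
  exact ⟨S, hS, fun c hc => hSZ hc, fun c hc hN => hall c hc hN⟩

theorem tw_h1 [TopologicalSpace H] (k : ℤ) (hk : k ≠ 0) :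
    H1Finite H (fun g => Gn.tw k (g : Gn p n F)) := by
  have hD : IsDomain (LT.E0 p n) := NoZeroDivisors.to_isDomain _
  obtain ⟨S, hS, hSZ, hall⟩ := h1TorsionFinite hn1 hΓ hF hA H hH (LT.E0 p n)
    (fun g => Gn.tw k (g : Gn p n F)) (tw_module H k) (fun m hm => by
      rw [smul_eq_mul] at hm
      exact (mul_eq_zero.1 hm).resolve_left Vale.Agent.P261.R2.H86.p_ne_zero)
  obtain ⟨N, hN⟩ := Gn.tw_torsion H hH hF.1 k hk
  refine ⟨S, hS, hSZ, fun c hc => hall c hc ⟨N, ?_⟩⟩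
  obtain ⟨y, hy⟩ := hN c hc.1
  refine ⟨y, fun g => ?_⟩
  rw [Pi.smul_apply, ← cast_smul (p := p) (n := n) N (c g), smul_eq_mul]
  exact hy g

theorem tw_zero_torsion_free [TopologicalSpace H] (N : ℕ) (c : H → LT.E0 p n)
    (hc : IsCocycle H (fun g => Gn.tw 0 (g : Gn p n F)) c)
    (hb : IsCoboundary (fun g : H => Gn.tw 0 (g : Gn p n F)) (p ^ N • c)) :
    IsCoboundary (fun g : H => Gn.tw 0 (g : Gn p n F)) c := by
  obtain ⟨m, hm⟩ := hb
  obtain ⟨y, hy⟩ := Vale.Agent.P261.R2.H86.E0_torsion_free hn1 hΓ hF hA H hH c (fun g h => by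
    have h1 : c (g * h) = c g + Gn.tw 0 (g : Gn p n F) (c h) := hc.1 g h
    rw [Gn.tw_zero] at h1
    exact h1) N m (fun g => by
    have h1 : (p ^ N • c) g = Gn.tw 0 (g : Gn p n F) m - m := hm g
    rw [Gn.tw_zero, Pi.smul_apply, ← cast_smul (p := p) (n := n) N (c g), smul_eq_mul] at h1
    exact h1)
  refine ⟨y, fun g => ?_⟩
  show c g = Gn.tw 0 (g : Gn p n F) y - y
  rw [Gn.tw_zero]
  exact hy g

end

end Vale.Agent.P261.R2.H932
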