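import Vale.Agent.P261.R2.H932.Const3

/-!
# P261: invariant fractions on the strata are constant
-/

namespace Vale.Agent.P261.R2.H932

open MvPowerSeries Vale.Agent.P217

variable {p n : ℕ} [Fact p.Prime] {Γ : FormalGroup (ZMod p)} {F : FormalGroup (P217.E0 p n)}

/-- The Teichmüller representatives in `E₀`. -/
noncomputable def tch (p n : ℕ) [Fact p.Prime] (c : GaloisField p n) : P217.E0 p n :=
  C (WittVector.teichmuller p c)

theorem tch_zero : tch p n 0 = 0 := by
  rw [tch, WittVector.teichmuller_zero, map_zero]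

theorem tch_one : tch p n 1 = 1 := by
  rw [tch, map_one, map_one]

theorem tch_mul (c d : GaloisField p n) : tch p n (c * d) = tch p n c * tch p n d := by
  rw [tch, map_mul, map_mul]
  rfl

theorem red_tch (c : GaloisField p n) : red p n (tch p n c) = c := by
  rw [red, RingHom.comp_apply, tch, constantCoeff_C]
  exact WittVector.teichmuller_coeff_zero p c

theorem tch_pow (hn1 : 1 ≤ n) (c : GaloisField p n) : tch p n c ^ p ^ n = tch p n c := by
  rw [tch, ← map_pow, ← map_pow, galois_pow hn1]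

theorem tch_inv (hn1 : 1 ≤ n) (h : ℕ) (hh : 1 ≤ h) (hle : h ≤ n) (φ : RingAut (P217.E0 p n))
    (hφ : (red p n).comp (φ : P217.E0 p n →+* P217.E0 p n) = red p n) (c : GaloisField p n) :
    φ (tch p n c) - tch p n c ∈ P217.heightIdeal p n h := by
  have key : ∀ x : P217.E0 p n, x ^ p ^ n = x →
      piH p n h hh hle x = C (red p n x) := by
    intro x hx
    have h1 : piH p n h hh hle x ^ p ^ n = piH p n h hh hle x := by rw [← map_pow, hx]
    have h2 := eq_C_of_pow_eq (p := p) hn1 h1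
    rw [h2, constantCoeff_piH]
  rw [mem_heightIdeal_iff h hh hle, map_sub, key (tch p n c) (tch_pow hn1 c),
    key (φ (tch p n c)) (by rw [← map_pow, tch_pow hn1]), sub_eq_zero]
  congr 1
  exact RingHom.congr_fun hφ (tch p n c)

section

variable (hn1 : 1 ≤ n) (hΓ : LT.IsHonda p n Γ) (hF : LT.IsUniversal p n Γ F)
    (hH : LT.HeightAdapted p n F) (U : Subgroup (RingAut (P217.E0 p n)))
    (hU : U ≤ LT.actionGroup p n Γ F) (hfin : U.relIndex (LT.actionGroup p n Γ F) ≠ 0)
    (hstr : ∀ φ ∈ U, (red p n).comp (φ : P217.E0 p n →+* P217.E0 p n) = red p n)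

include hn1 hΓ hF hH hU hfin hstr

theorem const_of_inv (h : ℕ) (hh : 1 ≤ h) (hle : h ≤ n) (f : P217.E0 p n)
    (hinv : ∀ φ ∈ U, φ f - f ∈ P217.heightIdeal p n h) :
    f - tch p n (red p n f) ∈ P217.heightIdeal p n h := by
  refine inv_const hn1 hΓ hF hH U hU hfin (n - h) h hh (by omega) _ (fun φ hφ => ?_) ?_
  · have h1 := tch_inv hn1 h hh hle φ (hstr φ hφ) (red p n f)
    rw [map_sub]
    have h2 : φ f - φ (tch p n (red p n f)) - (f - tch p n (red p n f)) =
        (φ f - f) - (φ (tch p n (red p n f)) - tch p n (red p n f)) := by ring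
    rw [h2]
    exact Ideal.sub_mem _ (hinv φ hφ) h1
  · rw [map_sub, red_tch, sub_self]

omit hΓ hfin hstr in
theorem mem_of_phi (h : ℕ) (hle : h ≤ n) (φ : RingAut (P217.E0 p n)) (hφ : φ ∈ U)
    (x : P217.E0 p n) : φ x ∈ P217.heightIdeal p n h ↔ x ∈ P217.heightIdeal p n h := by
  have hF' := LTC.isUniversal_iff.1 hF
  have key : ∀ ψ ∈ U, ∀ y ∈ P217.heightIdeal p n h, ψ y ∈ P217.heightIdeal p n h := by
    intro ψ hψ y hy
    obtain ⟨g, hg⟩ := actIso_of_mem hF' (hU hψ)
    rw [← isInvariant_heightIdeal_of_adapted hH h hle ψ g hg]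
    exact Ideal.mem_map_of_mem _ hy
  refine ⟨fun hx => ?_, key φ hφ x⟩
  have h1 := key φ⁻¹ (U.inv_mem hφ) _ hx
  have h2 : φ⁻¹ (φ x) = x := φ.symm_apply_apply x
  rwa [h2] at h1

theorem frac_aux (h : ℕ) (hh : 1 ≤ h) (hle : h ≤ n) (a b f : P217.E0 p n)
    (hb : b ∉ P217.heightIdeal p n h)
    (hab : ∀ φ ∈ U, φ a * b - a * φ b ∈ P217.heightIdeal p n h)
    (hf : a - f * b ∈ P217.heightIdeal p n h) :
    ∃ c, a - tch p n c * b ∈ P217.heightIdeal p n h := by
  have hprime : (P217.heightIdeal p n h).IsPrime := isPrime_heightIdeal hn1 h hle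
  refine ⟨red p n f, ?_⟩
  have h1 : f - tch p n (red p n f) ∈ P217.heightIdeal p n h := by
    refine const_of_inv hn1 hΓ hF hH U hU hfin hstr h hh hle f fun φ hφ => ?_
    have h2 : φ b * b * (φ f - f) ∈ P217.heightIdeal p n h := by
      have h3 := (mem_of_phi hn1 hF hH U hU h hle φ hφ (a - f * b)).2 hf
      rw [map_sub, map_mul] at h3
      have h4 := hab φ hφ
      have h5 : φ b * b * (φ f - f) = -(b * (φ a - φ f * φ b)) + (φ a * b - a * φ b) +
          φ b * (a - f * b) := by ring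
      rw [h5]
      exact Ideal.add_mem _ (Ideal.add_mem _ (Ideal.neg_mem_iff _ |>.2
        (Ideal.mul_mem_left _ _ h3)) h4) (Ideal.mul_mem_left _ _ hf)
    rcases hprime.mem_or_mem h2 with h6 | h6
    · exfalso
      rcases hprime.mem_or_mem h6 with h7 | h7
      · exact hb ((mem_of_phi hn1 hF hH U hU h hle φ hφ b).1 h7)
      · exact hb h7
    · exact h6
  have h2 : a - tch p n (red p n f) * b = (a - f * b) + b * (f - tch p n (red p n f)) := by ring
  rw [h2]
  exact Ideal.add_mem _ hf (Ideal.mul_mem_left _ _ h1)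

theorem exists_pow_mul (h : ℕ) (hh : 1 ≤ h) (hlt : h < n) (a b : P217.E0 p n)
    (hb : b ∉ P217.heightIdeal p n h)
    (hab : ∀ φ ∈ U, φ a * b - a * φ b ∈ P217.heightIdeal p n h) :
    ∃ (N : ℕ) (x : P217.E0 p n),
      (X (embH n h hh hlt.le ⟨0, Nat.sub_pos_of_lt hlt⟩) : P217.E0 p n) ^ N * a - x * b ∈
        P217.heightIdeal p n h := by
  have hprime : (P217.heightIdeal p n h).IsPrime := isPrime_heightIdeal hn1 h hlt.le
  let J : Ideal (P217.E0 p n) :=
    { carrier := {d | ∃ x, d * a - x * b ∈ P217.heightIdeal p n h}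
      add_mem' := by
        rintro d d' ⟨x, hx⟩ ⟨x', hx'⟩
        refine ⟨x + x', ?_⟩
        have h1 : (d + d') * a - (x + x') * b = (d * a - x * b) + (d' * a - x' * b) := by ring
        rw [h1]
        exact Ideal.add_mem _ hx hx'
      zero_mem' := ⟨0, by simp⟩
      smul_mem' := by
        rintro r d ⟨x, hx⟩
        refine ⟨r * x, ?_⟩
        have h1 : r • d * a - r * x * b = r * (d * a - x * b) := by
          rw [smul_eq_mul]; ring
        rw [h1]
        exact Ideal.mul_mem_left _ _ hx }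
  have hJle : ∀ φ ∈ U, J.map (φ : P217.E0 p n →+* P217.E0 p n) ≤ J := by
    intro φ hφ
    rw [Ideal.map_le_iff_le_comap]
    rintro d ⟨x, hx⟩
    rw [Ideal.mem_comap]
    refine ⟨φ x, ?_⟩
    change φ d * a - φ x * b ∈ _
    have h1 := (mem_of_phi hn1 hF hH U hU h hlt.le φ hφ _).2 hx
    rw [map_sub, map_mul, map_mul] at h1
    have h2 : φ b * (φ d * a - φ x * b) ∈ P217.heightIdeal p n h := by
      have h3 : φ b * (φ d * a - φ x * b) = b * (φ d * φ a - φ x * φ b) -
          φ d * (φ a * b - a * φ b) := by ring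
      rw [h3]
      exact Ideal.sub_mem _ (Ideal.mul_mem_left _ _ h1) (Ideal.mul_mem_left _ _ (hab φ hφ))
    rcases hprime.mem_or_mem h2 with h4 | h4
    · exact absurd ((mem_of_phi hn1 hF hH U hU h hlt.le φ hφ b).1 h4) hb
    · exact h4
  have hJ : ∀ φ ∈ U, J.map (φ : P217.E0 p n →+* P217.E0 p n) = J := by
    intro φ hφ
    refine le_antisymm (hJle φ hφ) ?_
    intro d hd
    have h1 : (φ⁻¹ : RingAut (P217.E0 p n)) d ∈ J := by
      have h2 := hJle φ⁻¹ (U.inv_mem hφ)
      exact h2 (Ideal.mem_map_of_mem _ hd)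
    have h2 := Ideal.mem_map_of_mem (φ : P217.E0 p n →+* P217.E0 p n) h1
    have h3 : (φ : P217.E0 p n →+* P217.E0 p n) ((φ⁻¹ : RingAut (P217.E0 p n)) d) = d :=
      φ.apply_symm_apply d
    rwa [h3] at h2
  have hIJ : P217.heightIdeal p n h ≤ J := by
    intro d hd
    refine ⟨0, ?_⟩
    rw [zero_mul, sub_zero]
    exact Ideal.mul_mem_right _ _ hd
  have hbJ : b ∈ J := ⟨a, by rw [mul_comm, sub_self]; exact Ideal.zero_mem _⟩
  obtain ⟨N, hN⟩ := exists_pow_mem hn1 hΓ hF hH U hU hfin h hh hlt J hJ hIJ b hbJ hb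
  obtain ⟨x, hx⟩ := hN
  exact ⟨N, x, hx⟩

/-- **Invariant fractions on the strata are constant.** -/
theorem frac_const (h : ℕ) (hh : 1 ≤ h) (hle : h ≤ n) (a b : P217.E0 p n)
    (hb : b ∉ P217.heightIdeal p n h)
    (hab : ∀ φ ∈ U, φ a * b - a * φ b ∈ P217.heightIdeal p n h) :
    ∃ c, a - tch p n c * b ∈ P217.heightIdeal p n h := by
  classical
  have hprime : (P217.heightIdeal p n h).IsPrime := isPrime_heightIdeal hn1 h hle
  by_cases ha : a ∈ P217.heightIdeal p n h
  · exact ⟨0, by rw [tch_zero, zero_mul, sub_zero]; exact ha⟩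
  rcases hle.eq_or_lt with heq | hlt
  · subst heq
    refine ⟨red p h a / red p h b, ?_⟩
    rw [mem_heightIdeal_top hn1] at hb ⊢
    rw [map_sub, map_mul, red_tch, div_mul_cancel₀ _ hb, sub_self]
  have hab' : ∀ φ ∈ U, φ b * a - b * φ a ∈ P217.heightIdeal p n h := by
    intro φ hφ
    have h1 : φ b * a - b * φ a = -(φ a * b - a * φ b) := by ring
    rw [h1]
    exact (Ideal.neg_mem_iff _).2 (hab φ hφ)
  obtain ⟨N, x, hx⟩ := exists_pow_mul hn1 hΓ hF hH U hU hfin hstr h hh hlt a b hb hab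
  obtain ⟨N', y, hy⟩ := exists_pow_mul hn1 hΓ hF hH U hU hfin hstr h hh hlt b a ha hab'
  have hD : IsDomain (MvPowerSeries (Fin (n - h)) (GaloisField p n)) := NoZeroDivisors.to_isDomain _
  have hXp := prime_X (p := p) hn1 h hh hlt
  set t : MvPowerSeries (Fin (n - h)) (GaloisField p n) :=
    X (⟨0, Nat.sub_pos_of_lt hlt⟩ : Fin (n - h)) with ht
  rw [mem_heightIdeal_iff h hh hlt.le] at ha hb
  rw [mem_heightIdeal_iff h hh hlt.le, map_sub, map_mul, map_mul, map_pow, piH_X_emb h hh hlt.le,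
    ← ht, sub_eq_zero] at hx hy
  set π := piH p n h hh hlt.le with hπ
  have hxy : π x * π y = t ^ (N + N') := by
    have h1 : (π x * π y) * π a = t ^ (N + N') * π a := by
      rw [pow_add]
      linear_combination (-t ^ N') * hx - π x * hy
    exact mul_right_cancel₀ ha h1
  obtain ⟨i, -, hi⟩ := (dvd_prime_pow hXp (N + N')).1 (Dvd.intro _ hxy)
  obtain ⟨v, hv⟩ := hi.symm
  rw [← hv] at hx
  rcases le_or_gt N i with hNi | hNi
  · obtain ⟨j, rfl⟩ := Nat.exists_eq_add_of_le hNi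
    obtain ⟨f, hf⟩ := piH_surjective (p := p) (n := n) h hh hlt.le
      (t ^ j * (v : MvPowerSeries (Fin (n - h)) (GaloisField p n)))
    refine frac_aux hn1 hΓ hF hH U hU hfin hstr h hh hle a b f ?_ hab ?_
    · rwa [mem_heightIdeal_iff h hh hlt.le]
    · rw [mem_heightIdeal_iff h hh hlt.le, map_sub, map_mul, hf, ← hπ, sub_eq_zero]
      have h1 : t ^ N * π a = t ^ N * (t ^ j *
          (v : MvPowerSeries (Fin (n - h)) (GaloisField p n)) * π b) := by
        rw [hx, pow_add]; ring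
      exact mul_left_cancel₀ (pow_ne_zero _ hXp.ne_zero) h1
  · obtain ⟨j, rfl⟩ := Nat.exists_eq_add_of_le hNi.le
    obtain ⟨f, hf⟩ := piH_surjective (p := p) (n := n) h hh hlt.le
      (t ^ j * ((v⁻¹ : (MvPowerSeries (Fin (n - h)) (GaloisField p n))ˣ) :
        MvPowerSeries (Fin (n - h)) (GaloisField p n)))
    obtain ⟨c, hc⟩ := frac_aux hn1 hΓ hF hH U hU hfin hstr h hh hle b a f
      (by rwa [mem_heightIdeal_iff h hh hlt.le]) hab' (by
        rw [mem_heightIdeal_iff h hh hlt.le, map_sub, map_mul, hf, ← hπ, sub_eq_zero]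
        have h1 : t ^ i * π b = t ^ i * (t ^ j *
            ((v⁻¹ : (MvPowerSeries (Fin (n - h)) (GaloisField p n))ˣ) :
              MvPowerSeries (Fin (n - h)) (GaloisField p n)) * π a) := by
          have h2 : ((v⁻¹ : (MvPowerSeries (Fin (n - h)) (GaloisField p n))ˣ) :
              MvPowerSeries (Fin (n - h)) (GaloisField p n)) * v = 1 := v.inv_mul
          rw [pow_add] at hx
          linear_combination (-((v⁻¹ : (MvPowerSeries (Fin (n - h)) (GaloisField p n))ˣ) :
              MvPowerSeries (Fin (n - h)) (GaloisField p n))) * hx - t ^ i * π b * h2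
        exact mul_left_cancel₀ (pow_ne_zero _ hXp.ne_zero) h1)
    have hc0 : c ≠ 0 := by
      rintro rfl
      rw [tch_zero, zero_mul, sub_zero, mem_heightIdeal_iff h hh hlt.le] at hc
      exact hb hc
    refine ⟨c⁻¹, ?_⟩
    have h3 : tch p n c⁻¹ * tch p n c = 1 := by rw [← tch_mul, inv_mul_cancel₀ hc0, tch_one]
    have h4 : a - tch p n c⁻¹ * b = -(tch p n c⁻¹ * (b - tch p n c * a)) := by
      linear_combination (-a) * h3
    rw [h4]
    exact (Ideal.neg_mem_iff _).2 (Ideal.mul_mem_left _ _ hc)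

end

end Vale.Agent.P261.R2.H932
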