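import Vale.Agent.P261.R2.H932.Dev

/-!
# P261: representatives of the invariants modulo powers of `p`
-/

namespace Vale.Agent.P261.R2.H932

open MvPowerSeries Vale.Agent.P217 Vale.Agent.P217.H934

variable {p n : ℕ} [Fact p.Prime] {Γ : FormalGroup (ZMod p)} {F : FormalGroup (P217.E0 p n)}
variable {𝔾 : Type*} [Group 𝔾] [TopologicalSpace 𝔾] {π : 𝔾 →* RingAut (P217.E0 p n)}
variable {J : Ideal (P217.E0 p n)}

/-- The submodule `p ^ N M`. -/
noncomputable def ppow (M : EqModule J π) (N : ℕ) : Submodule (P217.E0 p n) M.carrier :=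
  LinearMap.range (LinearMap.lsmul (P217.E0 p n) M.carrier ((p : P217.E0 p n) ^ N))

theorem mem_ppow (M : EqModule J π) (N : ℕ) (m : M.carrier) :
    m ∈ ppow M N ↔ ∃ y, m = (p : P217.E0 p n) ^ N • y := by
  constructor
  · rintro ⟨y, rfl⟩
    exact ⟨y, rfl⟩
  · rintro ⟨y, rfl⟩
    exact ⟨y, rfl⟩

theorem rho_pow (M : EqModule J π) (N : ℕ) (g : 𝔾) (m : M.carrier) :
    M.ρ g ((p : P217.E0 p n) ^ N • m) = (p : P217.E0 p n) ^ N • M.ρ g m := by
  rw [M.semilinear, map_pow, map_natCast]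

theorem ppow_stable (M : EqModule J π) (N : ℕ) (g : 𝔾) (m : M.carrier) (hm : m ∈ ppow M N) :
    M.ρ g m ∈ ppow M N := by
  obtain ⟨y, rfl⟩ := (mem_ppow M N m).1 hm
  exact (mem_ppow M N _).2 ⟨M.ρ g y, rho_pow M N g y⟩

section

variable (hn1 : 1 ≤ n) (hΓ : LT.IsHonda p n Γ) (hF : LT.IsUniversal p n Γ F)
    (hH : LT.HeightAdapted p n F) (hr : π.range ≤ LT.actionGroup p n Γ F)
    (hfin : π.range.relIndex (LT.actionGroup p n Γ F) ≠ 0)

include hn1 hΓ hF hH hr hfin

/-- Representatives for the vectors which are invariant modulo `p ^ N`. -/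
theorem exists_reps (M : EqModule J π) (N : ℕ) : ∃ S : Set M.carrier, S.Finite ∧
    ∀ m : M.carrier, (∀ g, ∃ y, M.ρ g m - m = (p : P217.E0 p n) ^ N • y) →
      ∃ s ∈ S, ∃ y, m - s = (p : P217.E0 p n) ^ N • y := by
  classical
  have h1 := finite_inv hn1 hΓ hF hH hr hfin (M.quot (ppow M N) (fun g m hm => ppow_stable M N g m hm))
    N (by
      intro x
      obtain ⟨m, rfl⟩ := (ppow M N).mkQ_surjective x
      have h2 : (Submodule.Quotient.mk ((p : P217.E0 p n) ^ N • m) : M.carrier ⧸ ppow M N) = 0 :=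
        (Submodule.Quotient.mk_eq_zero (ppow M N)).2 ((mem_ppow M N _).2 ⟨m, rfl⟩)
      exact h2)
  refine ⟨_, h1.image (Function.surjInv (ppow M N).mkQ_surjective), fun m hm => ?_⟩
  refine ⟨_, ⟨(ppow M N).mkQ m, ?_, rfl⟩, ?_⟩
  · intro g
    have h2 : (ppow M N).mkQ (M.ρ g m - m) = 0 := by
      rw [Submodule.mkQ_apply]
      exact (Submodule.Quotient.mk_eq_zero (ppow M N)).2 ((mem_ppow M N _).2 (hm g))
    rw [map_sub, sub_eq_zero] at h2
    exact h2
  · rw [← mem_ppow, ← Submodule.Quotient.mk_eq_zero (ppow M N), ← Submodule.mkQ_apply, map_sub,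
      Function.surjInv_eq (ppow M N).mkQ_surjective, sub_self]

/-- The invariants are generated modulo `p` by finitely many elements. -/
theorem exists_step (M : EqModule J π) : ∃ S : Set M.carrier, S.Finite ∧
    (∀ s ∈ S, ∀ g, M.ρ g s = s) ∧ ∀ v : M.carrier, (∀ g, M.ρ g v = v) →
      ∃ s ∈ S, ∃ v' : M.carrier, (∀ g, M.ρ g v' = v') ∧ v = s + (p : P217.E0 p n) • v' := by
  classical
  -- the `p`-power torsion is killed by `p ^ k`
  have hnoe : IsNoetherian (P217.E0 p n) M.carrier :=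
    isNoetherian_of_isNoetherianRing_of_finite (P217.E0 p n) _
  let f : ℕ →o Submodule (P217.E0 p n) M.carrier :=
    { toFun := fun N => LinearMap.ker (LinearMap.lsmul (P217.E0 p n) M.carrier
        ((p : P217.E0 p n) ^ N))
      monotone' := by
        intro a b hab x hx
        obtain ⟨c, rfl⟩ := Nat.exists_eq_add_of_le hab
        change (p : P217.E0 p n) ^ (a + c) • x = 0
        have hx' : (p : P217.E0 p n) ^ a • x = 0 := hx
        rw [add_comm, pow_add, mul_smul, hx', smul_zero] }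
  obtain ⟨k, hk⟩ := monotone_stabilizes_iff_noetherian.2 hnoe f
  have hk' : ∀ x : M.carrier, (p : P217.E0 p n) ^ (k + 1) • x = 0 → (p : P217.E0 p n) ^ k • x = 0 := by
    intro x hx
    have h1 : x ∈ f (k + 1) := hx
    rw [← hk (k + 1) (Nat.le_succ k)] at h1
    exact h1
  obtain ⟨S, hS, hSm⟩ := exists_reps hn1 hΓ hF hH hr hfin M (k + 1)
  let q : M.carrier → M.carrier := fun s =>
    if hs : ∃ v : M.carrier, (∀ g, M.ρ g v = v) ∧ ∃ y, v - s = (p : P217.E0 p n) ^ (k + 1) • y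
    then hs.choose else 0
  refine ⟨q '' S, hS.image q, ?_, ?_⟩
  · rintro _ ⟨s, -, rfl⟩ g
    by_cases hs : ∃ v : M.carrier, (∀ g, M.ρ g v = v) ∧
        ∃ y, v - s = (p : P217.E0 p n) ^ (k + 1) • y
    · simp only [q, dif_pos hs]
      exact hs.choose_spec.1 g
    · simp only [q, dif_neg hs]
      exact map_zero _
  · intro v hv
    obtain ⟨s, hs, y, hy⟩ := hSm v (fun g => ⟨0, by rw [hv, sub_self, smul_zero]⟩)
    have hs' : ∃ v : M.carrier, (∀ g, M.ρ g v = v) ∧
        ∃ y, v - s = (p : P217.E0 p n) ^ (k + 1) • y := ⟨v, hv, y, hy⟩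
    have hqs : q s = hs'.choose := by simp only [q, dif_pos hs']
    obtain ⟨h1, y', hy'⟩ := hs'.choose_spec
    rw [← hqs] at h1 hy'
    refine ⟨q s, ⟨s, hs, rfl⟩, (p : P217.E0 p n) ^ k • (y - y'), fun g => ?_, ?_⟩
    · have h2 : (p : P217.E0 p n) ^ (k + 1) • (M.ρ g (y - y') - (y - y')) = 0 := by
        have h3 : (p : P217.E0 p n) ^ (k + 1) • (y - y') = v - q s := by
          rw [smul_sub, ← hy, ← hy']
          abel
        rw [smul_sub, ← rho_pow, h3, map_sub, hv, h1, sub_self]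
      have h4 := hk' _ h2
      rw [smul_sub, ← rho_pow, sub_eq_zero] at h4
      exact h4
    · rw [smul_smul, ← pow_succ', smul_sub, ← hy, ← hy']
      abel

end

end Vale.Agent.P261.R2.H932
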