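import Vale.Agent.P261.R2.H932.Stmt
import Vale.Agent.P261.R2.H700.Zp
import Vale.Agent.P261.R2.H700.Rat

/-!
# P261: `H¹` is finitely generated if it is rationally finite-dimensional
(adapted from `H86/H1Mod.lean` of helper86)
-/

namespace Vale.Agent.P261.R2.H932.HG

open Vale.Agent.P217.LT Vale.Agent.P261 Vale.Agent.P261.R2.H700 Topology

variable {p n : ℕ} [Fact p.Prime]

section

variable {G : Type} [Group G] [TopologicalSpace G] {M : Type} [AddCommGroup M]
  [Module (E0 p n) M] {a : G → St.Pair p n} {ρ : G → M → M}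

theorem rho_zero (h : St.IsMoravaModule a ρ) (g : G) : ρ g 0 = 0 := by
  have h1 := h.add g 0 0
  rw [add_zero] at h1
  exact left_eq_add.1 h1

theorem rho_sub (h : St.IsMoravaModule a ρ) (g : G) (m m' : M) :
    ρ g (m - m') = ρ g m - ρ g m' := by
  have h1 := h.add g (m - m') m'
  rw [sub_add_cancel] at h1
  rw [h1, add_sub_cancel_right]

theorem rho_zp (h : St.IsMoravaModule a ρ)
    (hfix : ∀ x (b : ℤ_[p]), (a x).φ (St.zp p n b) = St.zp p n b) (g : G) (b : ℤ_[p]) (m : M) :
    ρ g (St.zp p n b • m) = St.zp p n b • ρ g m := by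
  rw [h.smul, hfix]

theorem rho_pow (h : St.IsMoravaModule a ρ) (g : G) (k : ℕ) (m : M) :
    ρ g ((p : E0 p n) ^ k • m) = (p : E0 p n) ^ k • ρ g m := by
  rw [h.smul, map_pow, map_natCast]

/-- the crossed homomorphisms -/
def Z1 (h : St.IsMoravaModule a ρ)
    (hfix : ∀ x (b : ℤ_[p]), (a x).φ (St.zp p n b) = St.zp p n b) :
    @Submodule ℤ_[p] (G → M) _ _ (Module.compHom (G → M) (St.zp p n)) :=
  letI : Module ℤ_[p] (G → M) := Module.compHom (G → M) (St.zp p n)
  { carrier := {c | St.IsCocycle p n ρ c}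
    add_mem' := by
      rintro c c' ⟨h1, h2⟩ ⟨h3, h4⟩
      refine ⟨fun g g' => ?_, fun k => ?_⟩
      · show c (g * g') + c' (g * g') = c g + c' g + ρ g (c g' + c' g')
        rw [h1, h3, h.add]
        abel
      · filter_upwards [h2 k, h4 k] with g h5 h6
        exact Submodule.add_mem _ h5 h6
    zero_mem' := by
      refine ⟨fun g g' => ?_, fun k => ?_⟩
      · show (0 : M) = 0 + ρ g 0
        rw [rho_zero h, add_zero]
      · exact Filter.Eventually.of_forall fun g => Submodule.zero_mem _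
    smul_mem' := by
      rintro b c ⟨h1, h2⟩
      refine ⟨fun g g' => ?_, fun k => ?_⟩
      · show St.zp p n b • c (g * g') = St.zp p n b • c g + ρ g (St.zp p n b • c g')
        rw [h1, rho_zp h hfix, smul_add]
      · filter_upwards [h2 k] with g h5
        exact Submodule.smul_mem _ (St.zp p n b) h5 }

theorem h1_fg (h : St.IsMoravaModule a ρ)
    (hfix : ∀ x (b : ℤ_[p]), (a x).φ (St.zp p n b) = St.zp p n b)
    (hT : St.H1TorsionFinite p n ρ) (hR : St.H1RationallyFG p n ρ) : St.H1FG p n ρ := by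
  classical
  obtain ⟨d, b, hb, hs⟩ := hR
  have hfin := h.finite
  letI : Module ℤ_[p] (G → M) := Module.compHom (G → M) (St.zp p n)
  have hsm : ∀ (x : ℤ_[p]) (c : G → M) (g : G), (x • c) g = St.zp p n x • c g := fun _ _ _ => rfl
  let Z : Submodule ℤ_[p] (G → M) := Z1 h hfix
  have hZ : ∀ c : Z, St.IsCocycle p n ρ c.1 := fun c => c.2
  let B : Submodule ℤ_[p] Z :=
    { carrier := {c | St.IsCoboundary ρ c.1}
      add_mem' := by
        rintro c c' ⟨m, hm⟩ ⟨m', hm'⟩
        refine ⟨m + m', fun g => ?_⟩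
        show c.1 g + c'.1 g = _
        rw [hm, hm', h.add]
        abel
      zero_mem' := ⟨0, fun g => by
        show (0 : M) = _
        rw [rho_zero h, sub_zero]⟩
      smul_mem' := by
        rintro x c ⟨m, hm⟩
        refine ⟨St.zp p n x • m, fun g => ?_⟩
        show St.zp p n x • c.1 g = _
        rw [hm, rho_zp h hfix, smul_sub] }
  have hB : ∀ c : Z, Submodule.Quotient.mk (p := B) c = 0 ↔ St.IsCoboundary ρ c.1 := fun c =>
    Submodule.Quotient.mk_eq_zero B
  have hnat : ∀ (N : ℕ) (c : G → M), ((p : ℤ_[p]) ^ N • c) = (p ^ N • c : G → M) := by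
    intro N c
    funext g
    rw [hsm, map_pow, map_natCast]
    show _ = p ^ N • c g
    rw [← Nat.cast_smul_eq_nsmul (E0 p n), Nat.cast_pow]
  have hsumc : ∀ (k : ℕ) (x : Fin k → ℤ_[p]) (e : Fin k → Z),
      (((∑ i, x i • e i : Z) : G → M)) = fun g => ∑ i, St.zp p n (x i) • (e i).1 g := by
    intro k x e
    funext g
    rw [Submodule.coe_sum, Finset.sum_apply]
    rfl
  have key : Module.Finite ℤ_[p] (Z ⧸ B) := by
    refine fg_of_rational ?_ ?_ d (fun i => Submodule.Quotient.mk (p := B) ⟨b i, hb i⟩) ?_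
    · -- no divisible sequences
      intro v hv
      choose c hc using fun k => Submodule.Quotient.mk_surjective B (v k)
      have h1 : ∀ k, ∃ y : M, ∀ g, (c k).1 g - (p : E0 p n) • (c (k + 1)).1 g = ρ g y - y := by
        intro k
        have h2 : Submodule.Quotient.mk (p := B) (c k - (p : ℤ_[p]) • c (k + 1)) = 0 := by
          rw [Submodule.Quotient.mk_sub, Submodule.Quotient.mk_smul, hc, hc, hv k, sub_self]
        obtain ⟨y, hy⟩ := (hB _).1 h2
        refine ⟨y, fun g => ?_⟩
        rw [← hy g]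
        show _ = (c k).1 g - ((p : ℤ_[p]) • (c (k + 1)).1) g
        rw [hsm, map_natCast]
      choose y hy using h1
      obtain ⟨m, hm⟩ := complete (p := p) (n := n)
        (fun k => ∑ j ∈ Finset.range k, (p : E0 p n) ^ j • y j) fun k =>
          ⟨y k, by rw [Finset.sum_range_succ, add_sub_cancel_left]⟩
      have h2 : ∀ k g, (c 0).1 g = (ρ g (∑ j ∈ Finset.range k, (p : E0 p n) ^ j • y j) -
          ∑ j ∈ Finset.range k, (p : E0 p n) ^ j • y j) + (p : E0 p n) ^ k • (c k).1 g := by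
        intro k g
        induction k with
        | zero => rw [Finset.sum_range_zero, rho_zero h, sub_zero, zero_add, pow_zero, one_smul]
        | succ k ih =>
          rw [ih, Finset.sum_range_succ, h.add, rho_pow h]
          have h3 : (c k).1 g = (p : E0 p n) • (c (k + 1)).1 g + (ρ g (y k) - y k) := by
            rw [← hy k g]; abel
          rw [h3, smul_add, smul_sub, ← mul_smul, ← pow_succ]
          abel
      rw [← hc 0, hB]
      refine ⟨m, fun g => ?_⟩
      rw [← sub_eq_zero]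
      refine sep (p := p) (n := n) _ fun k => ?_
      obtain ⟨z, hz⟩ := hm k
      refine ⟨(c k).1 g - (ρ g z - z), ?_⟩
      have h4 : m = ∑ j ∈ Finset.range k, (p : E0 p n) ^ j • y j + (p : E0 p n) ^ k • z := by
        rw [← hz]; abel
      rw [h2 k g]
      conv_lhs => rw [h4]
      rw [h.add, rho_pow h, smul_sub, smul_sub]
      abel
    · -- torsion
      obtain ⟨S, hS, hSc, hSt⟩ := hT
      have hf : Finite S := hS
      refine (Set.finite_range fun s : S =>
        (Submodule.Quotient.mk (p := B) ⟨s.1, hSc s.1 s.2⟩ : Z ⧸ B)).subset ?_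
      rintro v ⟨N, hN⟩
      obtain ⟨c, rfl⟩ := Submodule.Quotient.mk_surjective B v
      rw [← Submodule.Quotient.mk_smul, hB] at hN
      have h1 : St.IsCoboundary ρ (p ^ N • c.1) := by
        rw [← hnat]; exact hN
      obtain ⟨c', hc', h2⟩ := hSt c.1 (hZ c) ⟨N, h1⟩
      refine ⟨⟨c', hc'⟩, ?_⟩
      symm
      rw [← sub_eq_zero, ← Submodule.Quotient.mk_sub, hB]
      exact h2
    · intro v
      obtain ⟨c, rfl⟩ := Submodule.Quotient.mk_surjective B v
      obtain ⟨N, x, hx⟩ := hs c.1 (hZ c)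
      refine ⟨N, x, ?_⟩
      rw [← sub_eq_zero, ← Submodule.Quotient.mk_smul]
      have h1 : ∑ i, x i • (Submodule.Quotient.mk (p := B) ⟨b i, hb i⟩ : Z ⧸ B) =
          Submodule.Quotient.mk (p := B) (∑ i, x i • (⟨b i, hb i⟩ : Z)) := by
        rw [← Submodule.mkQ_apply, map_sum]
        rfl
      rw [h1, ← Submodule.Quotient.mk_sub, hB]
      have h2 : (((p : ℤ_[p]) ^ N • c - ∑ i, x i • (⟨b i, hb i⟩ : Z) : Z) : G → M) =
          p ^ N • c.1 - fun g => ∑ i, St.zp p n (x i) • b i g := by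
        rw [Submodule.coe_sub, hsumc, Submodule.coe_smul, hnat]
      rw [h2]
      exact hx
  obtain ⟨k, e, he⟩ := Module.Finite.exists_fin (R := ℤ_[p]) (M := Z ⧸ B)
  choose c hc using fun i => Submodule.Quotient.mk_surjective B (e i)
  refine ⟨k, fun i => (c i).1, fun i => hZ (c i), fun c₀ hc₀ => ?_⟩
  have h1 : (Submodule.Quotient.mk (p := B) ⟨c₀, hc₀⟩ : Z ⧸ B) ∈
      Submodule.span ℤ_[p] (Set.range e) := by rw [he]; exact Submodule.mem_top
  obtain ⟨x, hx⟩ := (Submodule.mem_span_range_iff_exists_fun ℤ_[p]).1 h1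
  refine ⟨x, ?_⟩
  have h2 : Submodule.Quotient.mk (p := B) ((⟨c₀, hc₀⟩ : Z) - ∑ i, x i • c i) = 0 := by
    rw [Submodule.Quotient.mk_sub, ← hx, sub_eq_zero, ← Submodule.mkQ_apply, map_sum]
    refine Finset.sum_congr rfl fun i _ => ?_
    rw [map_smul, Submodule.mkQ_apply, hc]
  have h3 := (hB _).1 h2
  have h4 : (((⟨c₀, hc₀⟩ : Z) - ∑ i, x i • c i : Z) : G → M) =
      c₀ - fun g => ∑ i, St.zp p n (x i) • (c i).1 g := by
    rw [Submodule.coe_sub, hsumc]
  rw [h4] at h3
  exact h3

end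

end Vale.Agent.P261.R2.H932.HG
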