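import Vale.Agent.P261.R2.H932.Final
import Vale.Agent.P261.R2.H932.Stmt

/-!
# P261: from groups identified with finite-index subgroups of `G_n` to subgroups of `Gn p n F`
-/

namespace Vale.Agent.P261.R2.H932

open MvPowerSeries Vale.Agent.P217 Vale.Agent.P261 Vale.Agent.P261.R2.H700

variable {p n : ℕ} [Fact p.Prime] {Γ : FormalGroup (ZMod p)} {F : FormalGroup (LT.E0 p n)}

theorem zp_eq : St.zp p n = zp p n := rfl

/-- the element of `Gn` given by a pair. -/
noncomputable def toGn (y : St.Pair p n) (hy : St.IsAut F y) : Gn p n F :=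
  ⟨(RingEquiv.ofBijective y.φ hy.1, y.g), hy.2⟩

theorem toGn_fst (y : St.Pair p n) (hy : St.IsAut F y) (r : LT.E0 p n) :
    (toGn y hy).1.1 r = y.φ r := rfl

/-- the pair of an element of `Gn`. -/
noncomputable def ofGn (x : Gn p n F) : St.Pair p n := ⟨(x.1.1 : LT.E0 p n →+* LT.E0 p n), x.1.2⟩

theorem ofGn_aut (x : Gn p n F) : St.IsAut F (ofGn x) := ⟨x.1.1.bijective, x.2⟩

theorem ofGn_mul (x y : Gn p n F) : ofGn (x * y) = (ofGn x).comp (ofGn y) := rfl

theorem toGn_ofGn (x : Gn p n F) : toGn (ofGn x) (ofGn_aut x) = x :=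
  Gn.ext (RingEquiv.ext fun _ => rfl) rfl

theorem ofGn_toGn (y : St.Pair p n) (hy : St.IsAut F y) : ofGn (toGn y hy) = y := rfl

theorem ofGn_injective : Function.Injective (ofGn : Gn p n F → St.Pair p n) := by
  intro x y h
  rw [← toGn_ofGn x, ← toGn_ofGn y]
  congr 1

/-- `G_n` itself. -/
theorem full : St.IsFiniteIndex F (ofGn : Gn p n F → St.Pair p n) where
  aut := ofGn_aut
  mul := ofGn_mul
  injective := ofGn_injective
  index := ⟨{ofGn (1 : Gn p n F)}, Set.finite_singleton _, by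
    rintro s rfl
    exact ofGn_aut 1, fun y hy => ⟨_, rfl, toGn y hy, by
      rw [← ofGn_mul, one_mul, ofGn_toGn]⟩⟩

theorem stabilizer (hF : LT.IsUniversal p n Γ F) : St.IsStabilizer Γ F := by
  obtain ⟨h1, h2, h3⟩ := Gn.reduces_bijective hF
  have hiff : ∀ (y : St.Pair p n) (hy : St.IsAut F y) σ γ, Gn.Reduces (toGn y hy) σ γ ↔
      y.Reduces σ γ := by
    intro y hy σ γ
    constructor
    · rintro ⟨h4, h5⟩
      exact ⟨fun r => RingHom.congr_fun h4 r, h5⟩
    · rintro ⟨h4, h5⟩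
      exact ⟨RingHom.ext h4, h5⟩
  refine ⟨fun x hx => ?_, fun σ γ hγ => ?_⟩
  · obtain ⟨s, hs, -⟩ := h1 (toGn x hx)
    exact ⟨s.1, s.2, (hiff x hx _ _).1 hs, h2 _ _ _ hs⟩
  · obtain ⟨x, hx, hu⟩ := h3 σ γ hγ
    refine ⟨ofGn x, ⟨ofGn_aut x, ?_⟩, ?_⟩
    · rw [← hiff (ofGn x) (ofGn_aut x), toGn_ofGn]
      exact hx
    · rintro y ⟨hy, hr⟩
      have h4 := hu (toGn y hy) ((hiff y hy σ γ).2 hr)
      rw [← h4]
      rfl

section

variable {G : Type} [Group G] {a : G → St.Pair p n} (ha : St.IsFiniteIndex F a)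

/-- the homomorphism to `Gn`. -/
noncomputable def jj : G →* Gn p n F :=
  MonoidHom.mk' (fun x => toGn (a x) (ha.aut x)) (by
    intro x y
    refine ofGn_injective ?_
    rw [ofGn_mul]
    exact ha.mul x y)

theorem jj_pi (x : G) (r : LT.E0 p n) : Gn.pi (jj ha x) r = (a x).φ r := rfl

theorem jj_t (x : G) : Gn.t (jj ha x) = PowerSeries.coeff 1 (a x).g := rfl

theorem jj_injective : Function.Injective (jj ha) := by
  intro x y h
  exact ha.injective (congrArg ofGn h)

theorem jj_index : (jj ha).range.index ≠ 0 := by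
  obtain ⟨S, hS, hSa, hall⟩ := ha.index
  have hfin : Finite S := hS
  have h1 : Function.Surjective (fun s : S =>
      (QuotientGroup.mk (toGn s.1 (hSa s.1 s.2)) : Gn p n F ⧸ (jj ha).range)) := by
    intro q
    obtain ⟨y, rfl⟩ := QuotientGroup.mk_surjective q
    obtain ⟨s, hs, x, hx⟩ := hall (ofGn y) (ofGn_aut y)
    refine ⟨⟨s, hs⟩, ?_⟩
    have h2 : y = toGn s (hSa s hs) * jj ha x := by
      refine ofGn_injective ?_
      rw [ofGn_mul]
      exact hx
    rw [h2]
    refine QuotientGroup.eq.2 ?_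
    rw [inv_mul_cancel_left]
    exact ⟨x, rfl⟩
  have h2 : Finite (Gn p n F ⧸ (jj ha).range) := Finite.of_surjective _ h1
  exact Subgroup.index_ne_zero_of_finite

/-- the isomorphism to the image. -/
noncomputable def ee : G ≃* (jj ha).range := MonoidHom.ofInjective (jj_injective ha)

theorem ee_coe (x : G) : ((ee ha x : (jj ha).range) : Gn p n F) = jj ha x := rfl

theorem ee_symm (g : (jj ha).range) : jj ha ((ee ha).symm g) = (g : Gn p n F) := by
  rw [← ee_coe, MulEquiv.apply_symm_apply]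

theorem pi_ee (g : (jj ha).range) (r : LT.E0 p n) :
    Gn.pi (g : Gn p n F) r = (a ((ee ha).symm g)).φ r := by
  conv_lhs => rw [← ee_symm ha g]
  exact jj_pi ha _ r

variable {M : Type} [AddCommGroup M] [Module (LT.E0 p n) M] {ρ : G → M → M}

/-- the action of the image. -/
noncomputable def rr (ρ : G → M → M) : (jj ha).range → M → M := fun g => ρ ((ee ha).symm g)

theorem rr_ee (x : G) (m : M) : rr ha ρ (ee ha x) m = ρ x m := by
  rw [rr, MulEquiv.symm_apply_apply]

theorem rr_module (h : St.IsMoravaModule a ρ) :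
    Vale.Agent.P261.IsMoravaModule (jj ha).range M (rr ha ρ) where
  finite := h.finite
  one := fun m => by rw [rr, map_one, h.one]
  mul := fun x y m => by rw [rr, map_mul, h.mul]; rfl
  add := fun x m m' => h.add _ m m'
  smul := fun x r m => by rw [rr, h.smul, pi_ee ha]

end

end Vale.Agent.P261.R2.H932
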